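import Vale.Agent.Lib.P084.SMP

open Set Metric

namespace Vale.Agent.Lib.P084

section faces

variable {N : Type*} [NormedAddCommGroup N] [NormedSpace ℝ N]

/-- Points of the unit sphere at distance two from `x`. -/
def farSet (x : N) : Set N := {y | ‖y‖ = 1 ∧ ‖x - y‖ = 2}

/-- Points of the unit sphere at distance two from all points of `farSet x`. -/
def farFar (x : N) : Set N := {u | ‖u‖ = 1 ∧ ∀ y ∈ farSet x, ‖u - y‖ = 2}

theorem norm_combo_of_sum_two {u v : N} (hu : ‖u‖ = 1) (hv : ‖v‖ = 1) (h : ‖u + v‖ = 2)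
    {s t : ℝ} (hs : 0 ≤ s) (ht : 0 ≤ t) (hst : s + t = 1) : ‖s • u + t • v‖ = 1 := by
  have hle : ∀ a b : ℝ, 0 ≤ a → 0 ≤ b → a + b = 1 → ‖a • u + b • v‖ ≤ 1 := by
    intro a b ha hb hab
    refine (norm_add_le _ _).trans ?_
    rw [norm_smul, norm_smul, hu, hv, Real.norm_of_nonneg ha, Real.norm_of_nonneg hb]
    linarith
  refine le_antisymm (hle s t hs ht hst) ?_
  have h1 : u + v = (s • u + t • v) + (t • u + s • v) := by
    have : u = (s + t) • u := by rw [hst, one_smul]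
    have h2 : v = (s + t) • v := by rw [hst, one_smul]
    nth_rewrite 1 [this]
    nth_rewrite 1 [h2]
    module
  have h3 := norm_add_le (s • u + t • v) (t • u + s • v)
  rw [← h1, h] at h3
  have h4 := hle t s ht hs (by linarith)
  linarith

/-- Convex subsets of the unit sphere. -/
def faceFamily (N : Type*) [NormedAddCommGroup N] [NormedSpace ℝ N] : Set (Set N) :=
  {C | Convex ℝ C ∧ ∀ x ∈ C, ‖x‖ = 1}

theorem exists_max_face {C₀ : Set N} (h : C₀ ∈ faceFamily N) :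
    ∃ M, C₀ ⊆ M ∧ Maximal (· ∈ faceFamily N) M := by
  refine zorn_subset_nonempty (faceFamily N) ?_ C₀ h
  intro c hc hchain _
  refine ⟨⋃₀ c, ⟨?_, ?_⟩, fun s hs => subset_sUnion_of_mem hs⟩
  · intro x hx y hy a b ha hb hab
    obtain ⟨s, hs, hxs⟩ := hx
    obtain ⟨t, ht, hyt⟩ := hy
    rcases hchain.total hs ht with hst | hts
    · exact ⟨t, ht, (hc ht).1 (hst hxs) hyt ha hb hab⟩
    · exact ⟨s, hs, (hc hs).1 hxs (hts hyt) ha hb hab⟩
  · rintro x ⟨s, hs, hxs⟩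
    exact (hc hs).2 x hxs

theorem sum_two_of_mem_face {M : Set N} (hM : M ∈ faceFamily N) {u v : N} (hu : u ∈ M) (hv : v ∈ M) :
    ‖u + v‖ = 2 := by
  have := hM.2 _ (hM.1 hu hv (by norm_num : (0 : ℝ) ≤ 1 / 2) (by norm_num : (0 : ℝ) ≤ 1 / 2)
    (by norm_num))
  rw [← smul_add, norm_smul] at this
  norm_num at this
  linarith

theorem mem_of_farFar {M : Set N} (hM : Maximal (· ∈ faceFamily N) M) {y u : N} (hy : y ∈ M)
    (hu : u ∈ farFar y) : u ∈ M := by
  have hMf : M ∈ faceFamily N := hM.prop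
  have hsum : ∀ v ∈ M, ‖u + v‖ = 2 := by
    intro v hv
    have h1 : -v ∈ farSet y := by
      refine ⟨by rw [norm_neg]; exact hMf.2 v hv, ?_⟩
      rw [sub_neg_eq_add]
      exact sum_two_of_mem_face hMf hy hv
    have := hu.2 _ h1
    rwa [sub_neg_eq_add] at this
  have hhull : convexHull ℝ (insert u M) ∈ faceFamily N := by
    refine ⟨convex_convexHull _ _, fun x hx => ?_⟩
    rw [convexHull_insert ⟨y, hy⟩, hMf.1.convexHull_eq, mem_convexJoin] at hx
    obtain ⟨a, ha, b, hb, s, t, hs, ht, hst, rfl⟩ := hx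
    rw [mem_singleton_iff] at ha
    subst ha
    exact norm_combo_of_sum_two hu.1 (hMf.2 b hb) (hsum b hb) hs ht hst
  have hsub : M ⊆ convexHull ℝ (insert u M) :=
    (subset_insert u M).trans (subset_convexHull ℝ _)
  exact hM.le_of_ge hhull hsub (subset_convexHull ℝ _ (mem_insert u M))

theorem neg_mem_farSet {x : N} (hx : ‖x‖ = 1) : -x ∈ farSet x := by
  refine ⟨by rw [norm_neg]; exact hx, ?_⟩
  rw [sub_neg_eq_add, ← two_smul ℝ x, norm_smul, hx]
  norm_num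

theorem convex_farFar {x : N} (hx : ‖x‖ = 1) : Convex ℝ (farFar x) := by
  intro u₁ hu₁ u₂ hu₂ s t hs ht hst
  have key : ∀ y ∈ farSet x, ‖s • u₁ + t • u₂‖ = 1 ∧ ‖s • u₁ + t • u₂ - y‖ = 2 := by
    intro y hy
    have hseg : segment ℝ x (-y) ∈ faceFamily N := by
      refine ⟨convex_segment _ _, ?_⟩
      rintro z ⟨a, b, ha, hb, hab, rfl⟩
      refine norm_combo_of_sum_two hx (by rw [norm_neg]; exact hy.1) ?_ ha hb hab
      rw [← sub_eq_add_neg]
      exact hy.2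
    obtain ⟨M, hsub, hM⟩ := exists_max_face hseg
    have hMf : M ∈ faceFamily N := hM.prop
    have hxM : x ∈ M := hsub (left_mem_segment ℝ _ _)
    have hyM : -y ∈ M := hsub (right_mem_segment ℝ _ _)
    have h1 := mem_of_farFar hM hxM hu₁
    have h2 := mem_of_farFar hM hxM hu₂
    have h3 : s • u₁ + t • u₂ ∈ M := hMf.1 h1 h2 hs ht hst
    refine ⟨hMf.2 _ h3, ?_⟩
    have := sum_two_of_mem_face hMf h3 hyM
    rwa [← sub_eq_add_neg] at this
  exact ⟨(key _ (neg_mem_farSet hx)).1, fun y hy => (key y hy).2⟩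

end faces

section sphereMaps

variable {X : Type*} [NormedAddCommGroup X] [NormedSpace ℝ X]
variable {Y : Type*} [NormedAddCommGroup Y] [NormedSpace ℝ Y]

/-- A surjective isometry of unit spheres, as a total map. -/
structure SphereIso (f : X → Y) : Prop where
  norm_one : ∀ x, ‖x‖ = 1 → ‖f x‖ = 1
  onto : ∀ y, ‖y‖ = 1 → ∃ x, ‖x‖ = 1 ∧ f x = y
  iso : ∀ x x', ‖x‖ = 1 → ‖x'‖ = 1 → ‖f x - f x'‖ = ‖x - x'‖

theorem SphereIso.image_farFar {f : X → Y} (hf : SphereIso f) {x : X} (hx : ‖x‖ = 1) :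
    f '' farFar x = farFar (f x) := by
  ext v
  constructor
  · rintro ⟨u, hu, rfl⟩
    refine ⟨hf.norm_one u hu.1, fun y' hy' => ?_⟩
    obtain ⟨y, hy, rfl⟩ := hf.onto y' hy'.1
    have hyfar : y ∈ farSet x := ⟨hy, by rw [← hf.iso x y hx hy]; exact hy'.2⟩
    rw [hf.iso u y hu.1 hy]
    exact hu.2 y hyfar
  · intro hv
    obtain ⟨u, hu, rfl⟩ := hf.onto v hv.1
    refine ⟨u, ⟨hu, fun y hy => ?_⟩, rfl⟩
    have hyfar : f y ∈ farSet (f x) := ⟨hf.norm_one y hy.1, by rw [hf.iso x y hx hy.1]; exact hy.2⟩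
    have := hv.2 _ hyfar
    rwa [hf.iso u y hu hy.1] at this

theorem SphereIso.affine_on_farFar [FiniteDimensional ℝ X] [FiniteDimensional ℝ Y] {f : X → Y}
    (hf : SphereIso f) {x : X} (hx : ‖x‖ = 1) {a b : X} (ha : a ∈ farFar x) (hb : b ∈ farFar x)
    {t : ℝ} (ht : t ∈ Icc (0 : ℝ) 1) :
    f ((1 - t) • a + t • b) = (1 - t) • f a + t • f b := by
  refine affine_of_isometry_convex (convex_farFar hx) (fun a ha b hb => hf.iso a b ha.1 hb.1) ?_ ha hb ht
  rw [hf.image_farFar hx]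
  exact convex_farFar (hf.norm_one x hx)

theorem SphereIso.finiteDimensional [FiniteDimensional ℝ X] [Nontrivial X] {f : X → Y}
    (hf : SphereIso f) : FiniteDimensional ℝ Y := by
  obtain ⟨x₀, hx₀⟩ := exists_norm_eq X (zero_le_one' ℝ)
  have hcX : IsCompact (sphere (0 : X) 1) := isCompact_sphere 0 1
  have hcont : ContinuousOn f (sphere (0 : X) 1) := by
    have hL : LipschitzOnWith 1 f (sphere (0 : X) 1) := by
      refine LipschitzOnWith.of_dist_le_mul fun a ha b hb => ?_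
      rw [dist_eq_norm, dist_eq_norm, hf.iso a b (by simpa using ha) (by simpa using hb)]
      simp
    exact hL.continuousOn
  have hcY : IsCompact (f '' sphere (0 : X) 1) := hcX.image_of_continuousOn hcont
  have himg : f '' sphere (0 : X) 1 = sphere (0 : Y) 1 := by
    ext y
    constructor
    · rintro ⟨x, hx, rfl⟩
      simpa using hf.norm_one x (by simpa using hx)
    · intro hy
      obtain ⟨x, hx, rfl⟩ := hf.onto y (by simpa using hy)
      exact ⟨x, by simpa using hx, rfl⟩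
  rw [himg] at hcY
  have hball : closedBall (0 : Y) 1 =
      (fun p : ℝ × Y => p.1 • p.2) '' (Icc (0 : ℝ) 1 ×ˢ sphere (0 : Y) 1) := by
    ext y
    constructor
    · intro hy
      have hy1 : ‖y‖ ≤ 1 := by simpa using hy
      by_cases h0 : y = 0
      · refine ⟨(0, f x₀), ⟨⟨le_refl _, zero_le_one⟩, by simpa using hf.norm_one x₀ hx₀⟩, ?_⟩
        simp [h0]
      · have hn : ‖y‖ ≠ 0 := norm_ne_zero_iff.2 h0
        refine ⟨(‖y‖, ‖y‖⁻¹ • y), ⟨⟨norm_nonneg _, hy1⟩, ?_⟩, ?_⟩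
        · simp [norm_smul, hn]
        · simp [smul_smul, hn]
    · rintro ⟨⟨r, u⟩, ⟨hr, hu⟩, rfl⟩
      have hu1 : ‖u‖ = 1 := by simpa using hu
      simp only [mem_closedBall_zero_iff, norm_smul, hu1, mul_one, Real.norm_eq_abs]
      rw [abs_of_nonneg hr.1]
      exact hr.2
  have hcB : IsCompact (closedBall (0 : Y) 1) := by
    rw [hball]
    exact (isCompact_Icc.prod hcY).image (by fun_prop)
  exact FiniteDimensional.of_isCompact_closedBall ℝ one_pos hcB

/-- Dimension bound through the Hausdorff dimension of an annulus. -/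
theorem SphereIso.finrank_le [FiniteDimensional ℝ X] [FiniteDimensional ℝ Y] [Nontrivial Y]
    {f : X → Y} (hf : SphereIso f) : Module.finrank ℝ Y ≤ Module.finrank ℝ X := by
  set F : X → Y := fun x => ‖x‖ • f (‖x‖⁻¹ • x) with hF
  set Ann : Set X := {x | 1 ≤ ‖x‖ ∧ ‖x‖ ≤ 2} with hAnn
  have hunit : ∀ x : X, 1 ≤ ‖x‖ → ‖‖x‖⁻¹ • x‖ = 1 := by
    intro x hx
    have hn : ‖x‖ ≠ 0 := by linarith
    rw [norm_smul, norm_inv, norm_norm, inv_mul_cancel₀ hn]
  have hLip : LipschitzOnWith 5 F Ann := by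
    refine LipschitzOnWith.of_dist_le_mul fun x hx x' hx' => ?_
    rw [dist_eq_norm, dist_eq_norm]
    set u := ‖x‖⁻¹ • x with hu
    set u' := ‖x'‖⁻¹ • x' with hu'
    have hu1 := hunit x hx.1
    have hu'1 := hunit x' hx'.1
    have hx0 : ‖x‖ ≠ 0 := by have := hx.1; linarith
    have hx'0 : ‖x'‖ ≠ 0 := by have := hx'.1; linarith
    have hdec : F x - F x' = (‖x‖ - ‖x'‖) • f u + ‖x'‖ • (f u - f u') := by
      simp only [hF]; module
    have hfu := hf.norm_one u hu1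
    have huu : ‖u - u'‖ ≤ 2 * ‖x - x'‖ := by
      have h1 : u - u' = ‖x‖⁻¹ • (x - x') + (‖x‖⁻¹ * (‖x'‖ - ‖x‖)) • u' := by
        have hx' : x' = ‖x'‖ • u' := by
          rw [hu', smul_smul, mul_inv_cancel₀ hx'0, one_smul]
        have : ‖x‖⁻¹ • (x - x') + (‖x‖⁻¹ * (‖x'‖ - ‖x‖)) • u'
            = ‖x‖⁻¹ • x - ‖x‖⁻¹ • x' + (‖x‖⁻¹ * ‖x'‖) • u' - (‖x‖⁻¹ * ‖x‖) • u' := by
          module
        rw [this, inv_mul_cancel₀ hx0, one_smul, ← hu, mul_smul, ← hx']
        abel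
      rw [h1]
      refine (norm_add_le _ _).trans ?_
      rw [norm_smul, norm_smul, hu'1, norm_inv, norm_norm, mul_one, Real.norm_eq_abs,
        abs_mul, abs_of_pos (inv_pos.2 (lt_of_le_of_ne (norm_nonneg x) hx0.symm))]
      have hinv : ‖x‖⁻¹ ≤ 1 := inv_le_one_of_one_le₀ hx.1
      have hinv0 : 0 ≤ ‖x‖⁻¹ := inv_nonneg.2 (norm_nonneg x)
      have habs : |‖x'‖ - ‖x‖| ≤ ‖x - x'‖ := by
        rw [norm_sub_rev x x']; exact abs_norm_sub_norm_le x' x
      nlinarith [norm_nonneg (x - x'), abs_nonneg (‖x'‖ - ‖x‖)]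
    rw [hdec]
    refine (norm_add_le _ _).trans ?_
    rw [norm_smul, norm_smul, hfu, mul_one, hf.iso u u' hu1 hu'1, norm_norm, Real.norm_eq_abs]
    have h1 : |‖x‖ - ‖x'‖| ≤ ‖x - x'‖ := abs_norm_sub_norm_le x x'
    have h2 : ‖x'‖ ≤ 2 := hx'.2
    have h3 : ‖x'‖ * ‖u - u'‖ ≤ 2 * ‖u - u'‖ :=
      mul_le_mul_of_nonneg_right h2 (norm_nonneg _)
    push_cast
    linarith
  have hsub : {y : Y | 1 < ‖y‖ ∧ ‖y‖ < 2} ⊆ F '' Ann := by
    rintro y ⟨hy1, hy2⟩
    have hn : ‖y‖ ≠ 0 := by linarith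
    have hunit' : ‖‖y‖⁻¹ • y‖ = 1 := by
      rw [norm_smul, norm_inv, norm_norm, inv_mul_cancel₀ hn]
    obtain ⟨x, hx, hfx⟩ := hf.onto _ hunit'
    refine ⟨‖y‖ • x, ?_, ?_⟩
    · simp only [hAnn, mem_setOf_eq, norm_smul, norm_norm, hx, mul_one]
      exact ⟨hy1.le, hy2.le⟩
    · have h1 : ‖‖y‖ • x‖ = ‖y‖ := by rw [norm_smul, norm_norm, hx, mul_one]
      simp only [hF]
      rw [h1, smul_smul, inv_mul_cancel₀ hn, one_smul, hfx, smul_smul, mul_inv_cancel₀ hn, one_smul]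
  have hopen : IsOpen {y : Y | 1 < ‖y‖ ∧ ‖y‖ < 2} :=
    (isOpen_lt continuous_const continuous_norm).inter (isOpen_lt continuous_norm continuous_const)
  obtain ⟨y₀, hy₀⟩ := exists_norm_eq Y (by norm_num : (0 : ℝ) ≤ 3 / 2)
  have hne : (interior {y : Y | 1 < ‖y‖ ∧ ‖y‖ < 2}).Nonempty := by
    rw [hopen.interior_eq]
    exact ⟨y₀, by rw [hy₀]; norm_num, by rw [hy₀]; norm_num⟩
  have h1 := Real.dimH_of_nonempty_interior hne
  have h2 := dimH_mono hsub
  have h3 := hLip.dimH_image_le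
  have h4 : dimH Ann ≤ Module.finrank ℝ X := by
    rw [← Real.dimH_univ_eq_finrank]
    exact dimH_mono (subset_univ _)
  rw [h1] at h2
  have h5 : ((Module.finrank ℝ Y : ℕ) : ENNReal) ≤ ((Module.finrank ℝ X : ℕ) : ENNReal) :=
    h2.trans (h3.trans h4)
  exact_mod_cast h5

end sphereMaps

end Vale.Agent.Lib.P084
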