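import Vale.Agent.Lib.P084.Sup

open Set Metric

namespace Vale.Agent.Lib.P084

variable {Z : Type*} [NormedAddCommGroup Z] [NormedSpace ℝ Z]
variable {W : Type*} [NormedAddCommGroup W] [NormedSpace ℝ W]
variable {X : Type*} [NormedAddCommGroup X] [NormedSpace ℝ X]
variable {Y : Type*} [NormedAddCommGroup Y] [NormedSpace ℝ Y]

/-- `E` identifies `X` with the `ℓ¹`-sum of `Z` and `W`. -/
def IsL1Sum (E : (Z × W) ≃ₗ[ℝ] X) : Prop := ∀ a b, ‖E (a, b)‖ = ‖a‖ + ‖b‖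

theorem IsL1Sum.sub {E : (Z × W) ≃ₗ[ℝ] X} (hE : IsL1Sum E) (a b a' b') :
    ‖E (a, b) - E (a', b')‖ = ‖a - a'‖ + ‖b - b'‖ := by
  rw [← map_sub]
  exact hE _ _

theorem smul_unit_sub_norm {a : Z} (ha : a ≠ 0) (h1 : ‖a‖ ≤ 1) : ‖a - ‖a‖⁻¹ • a‖ = 1 - ‖a‖ := by
  have hn : ‖a‖ ≠ 0 := norm_ne_zero_iff.2 ha
  have : a - ‖a‖⁻¹ • a = (1 - ‖a‖⁻¹) • a := by module
  rw [this, norm_smul, Real.norm_eq_abs]
  have hpos : 0 < ‖a‖ := norm_pos_iff.2 ha
  have hinv : 1 ≤ ‖a‖⁻¹ := (one_le_inv₀ hpos).2 h1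
  rw [abs_of_nonpos (by linarith)]
  field_simp
  ring

theorem unit_of_ne {a : Z} (ha : a ≠ 0) : ‖‖a‖⁻¹ • a‖ = 1 := by
  have hn : ‖a‖ ≠ 0 := norm_ne_zero_iff.2 ha
  rw [norm_smul, norm_inv, norm_norm, inv_mul_cancel₀ hn]

section side

variable [FiniteDimensional ℝ X] [FiniteDimensional ℝ Y]
variable {E : (Z × W) ≃ₗ[ℝ] X} {f : X → Y}

/-- The end points of a segment in the sphere belong to `farFar` of its midpoint. -/
theorem l1_mem_farFar (hE : IsL1Sum E) {z : Z} {w : W} (hz : ‖z‖ = 1) (hw : ‖w‖ = 1) :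
    E (z, 0) ∈ farFar (E ((1 / 2 : ℝ) • z, (1 / 2 : ℝ) • w)) ∧
      E (0, w) ∈ farFar (E ((1 / 2 : ℝ) • z, (1 / 2 : ℝ) • w)) := by
  have key : ∀ y ∈ farSet (E ((1 / 2 : ℝ) • z, (1 / 2 : ℝ) • w)),
      ‖E (z, 0) - y‖ = 2 ∧ ‖E (0, w) - y‖ = 2 := by
    rintro y ⟨hy1, hy2⟩
    obtain ⟨⟨a, b⟩, rfl⟩ := E.surjective y
    rw [hE] at hy1
    rw [hE.sub] at hy2
    have h1 : ‖(1 / 2 : ℝ) • z - a‖ ≤ 1 / 2 + ‖a‖ := by
      refine (norm_sub_le _ _).trans ?_
      rw [norm_smul, hz]; norm_num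
    have h2 : ‖(1 / 2 : ℝ) • w - b‖ ≤ 1 / 2 + ‖b‖ := by
      refine (norm_sub_le _ _).trans ?_
      rw [norm_smul, hw]; norm_num
    have h3 : ‖(1 / 2 : ℝ) • z - a‖ = 1 / 2 + ‖a‖ := by linarith
    have h4 : ‖(1 / 2 : ℝ) • w - b‖ = 1 / 2 + ‖b‖ := by linarith
    have h5 : ‖z - a‖ = 1 + ‖a‖ := by
      refine le_antisymm ?_ ?_
      · refine (norm_sub_le _ _).trans ?_
        rw [hz]
      · have : (1 / 2 : ℝ) • z - a = (1 / 2 : ℝ) • (z - a) + (-(1 / 2 : ℝ)) • a := by module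
        rw [this] at h3
        have h6 := norm_add_le ((1 / 2 : ℝ) • (z - a)) ((-(1 / 2 : ℝ)) • a)
        rw [h3, norm_smul, norm_smul] at h6
        norm_num at h6
        linarith
    have h6 : ‖w - b‖ = 1 + ‖b‖ := by
      refine le_antisymm ?_ ?_
      · refine (norm_sub_le _ _).trans ?_
        rw [hw]
      · have : (1 / 2 : ℝ) • w - b = (1 / 2 : ℝ) • (w - b) + (-(1 / 2 : ℝ)) • b := by module
        rw [this] at h4
        have h7 := norm_add_le ((1 / 2 : ℝ) • (w - b)) ((-(1 / 2 : ℝ)) • b)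
        rw [h4, norm_smul, norm_smul] at h7
        norm_num at h7
        linarith
    constructor
    · rw [hE.sub, h5, sub_eq_neg_add, add_zero] 
      simp only [zero_sub, norm_neg, neg_add_eq_sub]
      linarith
    · rw [hE.sub, h6]
      simp only [zero_sub, norm_neg]
      linarith
  refine ⟨⟨?_, fun y hy => (key y hy).1⟩, ⟨?_, fun y hy => (key y hy).2⟩⟩
  · rw [hE, hz, norm_zero, add_zero]
  · rw [hE, hw, norm_zero, zero_add]

theorem l1_segment (hE : IsL1Sum E) (hf : SphereIso f) {z : Z} {w : W} (hz : ‖z‖ = 1) (hw : ‖w‖ = 1)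
    {t : ℝ} (ht : t ∈ Icc (0 : ℝ) 1) :
    f (E ((1 - t) • z, t • w)) = (1 - t) • f (E (z, 0)) + t • f (E (0, w)) := by
  obtain ⟨h1, h2⟩ := l1_mem_farFar hE hz hw
  have hm : ‖E ((1 / 2 : ℝ) • z, (1 / 2 : ℝ) • w)‖ = 1 := by
    rw [hE, norm_smul, norm_smul, hz, hw]; norm_num
  have := hf.affine_on_farFar hm h1 h2 ht
  have heq : (1 - t) • E (z, 0) + t • E (0, w) = E ((1 - t) • z, t • w) := by
    rw [← map_smul, ← map_smul, ← map_add]
    simp
  rwa [heq] at this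

/-- Homogeneous extension of a map defined on a unit sphere. -/
noncomputable def homExt (g : Z → Y) (a : Z) : Y := ‖a‖ • g (‖a‖⁻¹ • a)

theorem homExt_zero (g : Z → Y) : homExt g 0 = 0 := by simp [homExt]

theorem homExt_unit (g : Z → Y) {a : Z} (ha : ‖a‖ = 1) : homExt g a = g a := by
  simp [homExt, ha]

theorem homExt_smul (g : Z → Y) {c : ℝ} (hc : 0 < c) (a : Z) : homExt g (c • a) = c • homExt g a := by
  simp only [homExt, norm_smul, Real.norm_of_nonneg hc.le, smul_smul]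
  by_cases ha : a = 0
  · simp [ha]
  · have hn : ‖a‖ ≠ 0 := norm_ne_zero_iff.2 ha
    have : (c * ‖a‖)⁻¹ * c = ‖a‖⁻¹ := by field_simp
    rw [this]

theorem l1_decomp (hE : IsL1Sum E) (hf : SphereIso f) {a : Z} {b : W} (hab : ‖a‖ + ‖b‖ = 1) :
    f (E (a, b)) = homExt (fun z => f (E (z, 0))) a + homExt (fun w => f (E (0, w))) b := by
  by_cases ha : a = 0
  · have hb : ‖b‖ = 1 := by rw [ha, norm_zero, zero_add] at hab; exact hab
    rw [ha, homExt_zero, zero_add, homExt_unit _ hb]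
  by_cases hb : b = 0
  · have ha1 : ‖a‖ = 1 := by rw [hb, norm_zero, add_zero] at hab; exact hab
    rw [hb, homExt_zero, add_zero, homExt_unit _ ha1]
  have h0a : ‖a‖ ≠ 0 := norm_ne_zero_iff.2 ha
  have h0b : ‖b‖ ≠ 0 := norm_ne_zero_iff.2 hb
  have ht : ‖b‖ ∈ Icc (0 : ℝ) 1 := ⟨norm_nonneg _, by linarith [norm_nonneg a]⟩
  have := l1_segment hE hf (unit_of_ne ha) (unit_of_ne hb) ht
  have h1 : (1 - ‖b‖) = ‖a‖ := by linarith
  rw [h1, smul_smul, smul_smul, mul_inv_cancel₀ h0a, mul_inv_cancel₀ h0b, one_smul, one_smul] at this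
  rw [this]
  rfl

/-- Distance two between the two families. -/
theorem l1_sum_two (hE : IsL1Sum E) (hf : SphereIso f) {z : Z} {w : W} (hz : ‖z‖ = 1)
    (hw : ‖w‖ = 1) : ‖f (E (z, 0)) + f (E (0, w))‖ = 2 := by
  have h := l1_segment hE hf hz hw (t := 1 / 2) (by norm_num)
  have hm : ‖E ((1 - 1 / 2 : ℝ) • z, (1 / 2 : ℝ) • w)‖ = 1 := by
    rw [hE, norm_smul, norm_smul, hz, hw]; norm_num
  have h2 := hf.norm_one _ hm
  rw [h] at h2
  have h3 : (1 - 1 / 2 : ℝ) • f (E (z, 0)) + (1 / 2 : ℝ) • f (E (0, w))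
      = (1 / 2 : ℝ) • (f (E (z, 0)) + f (E (0, w))) := by module
  rw [h3, norm_smul] at h2
  norm_num at h2
  linarith

/-- The antipode of a point of the `W`-part belongs to the `W`-part. -/
theorem l1_antipode [Nontrivial Z] (hE : IsL1Sum E) (hf : SphereIso f) {w : W} (hw : ‖w‖ = 1) :
    ∃ b : W, ‖b‖ = 1 ∧ f (E (0, b)) = -f (E (0, w)) ∧ ‖w - b‖ = 2 := by
  have h1 : ‖-f (E (0, w))‖ = 1 := by
    rw [norm_neg]
    exact hf.norm_one _ (by rw [hE, norm_zero, zero_add, hw])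
  obtain ⟨x, hx, hfx⟩ := hf.onto _ h1
  obtain ⟨⟨a, b⟩, rfl⟩ := E.surjective x
  have hxE := hx
  rw [hE] at hx
  have hfar : ∀ z : Z, ‖z‖ = 1 → ‖a - z‖ + ‖b‖ = 2 := by
    intro z hz
    have hzE : ‖E (z, (0 : W))‖ = 1 := by rw [hE, hz, norm_zero, add_zero]
    have h2 := hf.iso _ _ hxE hzE
    rw [hfx, hE.sub, sub_zero] at h2
    have h3 : -f (E (0, w)) - f (E (z, 0)) = -(f (E (z, 0)) + f (E (0, w))) := by abel
    rw [h3, norm_neg, l1_sum_two hE hf hz hw] at h2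
    exact h2.symm
  have ha : a = 0 := by
    by_contra ha
    have h2 := hfar _ (unit_of_ne ha)
    rw [smul_unit_sub_norm ha (by linarith [norm_nonneg b])] at h2
    have := norm_pos_iff.2 ha
    linarith
  subst ha
  have hb : ‖b‖ = 1 := by simpa using hx
  refine ⟨b, hb, hfx, ?_⟩
  have hwE : ‖E ((0 : Z), w)‖ = 1 := by rw [hE, norm_zero, zero_add, hw]
  have hbE : ‖E ((0 : Z), b)‖ = 1 := by rw [hE, norm_zero, zero_add, hb]
  have h2 := hf.iso _ _ hwE hbE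
  rw [hfx, hE.sub, sub_self, norm_zero, zero_add, sub_neg_eq_add, ← two_smul ℝ, norm_smul,
    hf.norm_one _ hwE] at h2
  norm_num at h2
  exact h2.symm

/-- The key distance formula. -/
theorem l1_key [Nontrivial Z] (hE : IsL1Sum E) (hf : SphereIso f) (a a' : Z) {w : W} (hw : ‖w‖ = 1)
    {r : ℝ} (hr : |‖a‖ - ‖a'‖| ≤ r) :
    ‖homExt (fun z => f (E (z, 0))) a - homExt (fun z => f (E (z, 0))) a' - r • f (E (0, w))‖
      = ‖a - a'‖ + r := by
  set Φ := homExt (fun z => f (E (z, (0 : W)))) with hΦ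
  have hr0 : 0 ≤ r := (abs_nonneg _).trans hr
  set s := r + ‖a‖ + ‖a'‖ with hs
  by_cases hs0 : s = 0
  · have h1 : ‖a‖ = 0 := by linarith [norm_nonneg a, norm_nonneg a']
    have h2 : ‖a'‖ = 0 := by linarith [norm_nonneg a, norm_nonneg a']
    have h3 : r = 0 := by linarith [norm_nonneg a, norm_nonneg a']
    have h4 := norm_eq_zero.1 h1
    have h5 := norm_eq_zero.1 h2
    simp [h3, h4, h5, hΦ, homExt_zero]
  have hspos : 0 < s := lt_of_le_of_ne (by positivity) (Ne.symm hs0)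
  obtain ⟨b, hb, hfb, hwb⟩ := l1_antipode hE hf hw
  set lam : ℝ := 2 / s with hlam
  have hlam0 : 0 < lam := by positivity
  set t := 1 - lam * ‖a‖ with ht
  set t' := 1 - lam * ‖a'‖ with ht'
  have hlams : lam * s = 2 := by rw [hlam]; field_simp
  have habs := abs_le.1 hr
  have ht0 : 0 ≤ t := by
    have : lam * ‖a‖ ≤ 1 := by
      have h1 : lam * (2 * ‖a‖) ≤ lam * s := by
        refine mul_le_mul_of_nonneg_left ?_ hlam0.le
        rw [hs]; linarith [habs.2]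
      rw [hlams] at h1
      linarith
    rw [ht]; linarith
  have ht'0 : 0 ≤ t' := by
    have : lam * ‖a'‖ ≤ 1 := by
      have h1 : lam * (2 * ‖a'‖) ≤ lam * s := by
        refine mul_le_mul_of_nonneg_left ?_ hlam0.le
        rw [hs]; linarith [habs.1]
      rw [hlams] at h1
      linarith
    rw [ht']; linarith
  have htt : t + t' = lam * r := by
    rw [ht, ht']
    have : lam * s = lam * r + lam * ‖a‖ + lam * ‖a'‖ := by rw [hs]; ring
    linarith
  have hx1 : ‖E (lam • a, t • b)‖ = 1 := by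
    rw [hE, norm_smul, norm_smul, hb, Real.norm_of_nonneg hlam0.le, Real.norm_of_nonneg ht0, ht]; ring
  have hx2 : ‖E (lam • a', t' • w)‖ = 1 := by
    rw [hE, norm_smul, norm_smul, hw, Real.norm_of_nonneg hlam0.le, Real.norm_of_nonneg ht'0, ht']; ring
  have hd1 : ‖lam • a‖ + ‖t • b‖ = 1 := by
    rw [← hE]; exact hx1
  have hd2 : ‖lam • a'‖ + ‖t' • w‖ = 1 := by
    rw [← hE]; exact hx2
  have hextb : homExt (fun w => f (E (0, w))) (t • b) = t • f (E (0, b)) := by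
    rcases eq_or_lt_of_le ht0 with h0 | h0
    · simp [← h0, homExt_zero]
    · rw [homExt_smul _ h0, homExt_unit _ hb]
  have hextw : homExt (fun w => f (E (0, w))) (t' • w) = t' • f (E (0, w)) := by
    rcases eq_or_lt_of_le ht'0 with h0 | h0
    · simp [← h0, homExt_zero]
    · rw [homExt_smul _ h0, homExt_unit _ hw]
  have hf1 : f (E (lam • a, t • b)) = lam • Φ a - t • f (E (0, w)) := by
    rw [l1_decomp hE hf hd1, homExt_smul _ hlam0, hextb, hfb, smul_neg]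
    abel
  have hf2 : f (E (lam • a', t' • w)) = lam • Φ a' + t' • f (E (0, w)) := by
    rw [l1_decomp hE hf hd2, homExt_smul _ hlam0, hextw]
  have hiso := hf.iso _ _ hx1 hx2
  rw [hf1, hf2, hE.sub, ← smul_sub] at hiso
  have hLHS : lam • Φ a - t • f (E (0, w)) - (lam • Φ a' + t' • f (E (0, w)))
      = lam • (Φ a - Φ a' - r • f (E (0, w))) := by
    have : (t + t') • f (E (0, w)) = (lam * r) • f (E (0, w)) := by rw [htt]
    rw [smul_sub, smul_sub, smul_smul, ← this]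
    module
  rw [hLHS, norm_smul, norm_smul, Real.norm_of_nonneg hlam0.le] at hiso
  have hbw : ‖t • b - t' • w‖ = t + t' := by
    have hsum : ‖b + (-w)‖ = 2 := by
      rw [← sub_eq_add_neg, norm_sub_rev]; exact hwb
    by_cases htt0 : t + t' = 0
    · have h1 : t = 0 := by linarith
      have h2 : t' = 0 := by linarith
      simp [h1, h2]
    · have htpos : 0 < t + t' := lt_of_le_of_ne (by positivity) (Ne.symm htt0)
      have hn := norm_combo_of_sum_two hb (by rw [norm_neg]; exact hw) hsum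
        (s := t / (t + t')) (t := t' / (t + t')) (by positivity) (by positivity)
        (by field_simp)
      have h3 : t • b - t' • w = (t + t') • ((t / (t + t')) • b + (t' / (t + t')) • (-w)) := by
        rw [smul_add, smul_smul, smul_smul, mul_div_cancel₀ _ htt0, mul_div_cancel₀ _ htt0, smul_neg]
        abel
      rw [h3, norm_smul, hn, mul_one, Real.norm_of_nonneg htpos.le]
  rw [hbw, htt] at hiso
  have hfin : lam * ‖Φ a - Φ a' - r • f (E (0, w))‖ = lam * (‖a - a'‖ + r) := by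
    rw [hiso]; ring
  exact mul_left_cancel₀ hlam0.ne' hfin

/-- Differences of values of the homogeneous extension are again values, with the right norm. -/
theorem l1_diff [Nontrivial Z] [Nontrivial W] (hE : IsL1Sum E) (hf : SphereIso f) (a a' : Z) :
    ∃ c, homExt (fun z => f (E (z, (0 : W)))) a - homExt (fun z => f (E (z, (0 : W)))) a'
        = homExt (fun z => f (E (z, (0 : W)))) c ∧ ‖c‖ = ‖a - a'‖ := by
  set Φ := homExt (fun z => f (E (z, (0 : W)))) with hΦ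
  set u := Φ a - Φ a' with hu
  set κ := ‖u‖ with hκ
  set D := ‖a - a'‖ with hD
  obtain ⟨w₀, hw₀⟩ := exists_norm_eq W (zero_le_one' ℝ)
  have hRD : |‖a‖ - ‖a'‖| ≤ D := abs_norm_sub_norm_le a a'
  have hDκ : D ≤ κ := by
    have h1 := l1_key hE hf a a' hw₀ (le_refl _)
    have h2 := norm_sub_le (Φ a - Φ a') (|‖a‖ - ‖a'‖| • f (E (0, w₀)))
    have hn : ‖E ((0 : Z), w₀)‖ = 1 := by rw [hE, norm_zero, zero_add, hw₀]
    rw [h1, norm_smul, hf.norm_one _ hn, mul_one, Real.norm_eq_abs, abs_abs] at h2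
    linarith
  by_cases hκ0 : κ = 0
  · have hD0 : D = 0 := le_antisymm (by linarith) (norm_nonneg _)
    refine ⟨0, ?_, by rw [norm_zero]; exact hD0.symm⟩
    have : u = 0 := norm_eq_zero.1 hκ0
    rw [this, hΦ, homExt_zero]
  have hκpos : 0 < κ := lt_of_le_of_ne (norm_nonneg _) (Ne.symm hκ0)
  have hu0 : u ≠ 0 := norm_ne_zero_iff.1 hκ0
  obtain ⟨x, hx, hfx⟩ := hf.onto _ (unit_of_ne hu0)
  obtain ⟨⟨c', b'⟩, rfl⟩ := E.surjective x
  have hxE := hx
  rw [hE] at hx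
  have huκ : u = κ • f (E (c', b')) := by
    rw [hfx, smul_smul, hκ, mul_inv_cancel₀ hκ0, one_smul]
  have hstar : ∀ w : W, ‖w‖ = 1 → κ * (‖c'‖ + ‖b' - w‖) = D + κ := by
    intro w hw
    have h1 := l1_key hE hf a a' hw (r := κ) (hRD.trans hDκ)
    have hn : ‖E ((0 : Z), w)‖ = 1 := by rw [hE, norm_zero, zero_add, hw]
    rw [← hu, ← hD] at h1
    have h2 : u - κ • f (E (0, w)) = κ • (f (E (c', b')) - f (E (0, w))) := by
      rw [smul_sub, ← huκ]
    rw [h2, norm_smul, Real.norm_of_nonneg hκpos.le, hf.iso _ _ hxE hn, hE.sub, sub_zero] at h1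
    exact h1
  have hb' : b' = 0 := by
    by_contra hb
    have h1 := hstar _ (unit_of_ne hb)
    have h2 := hstar (-(‖b'‖⁻¹ • b')) (by rw [norm_neg]; exact unit_of_ne hb)
    rw [smul_unit_sub_norm hb (by linarith [norm_nonneg c'])] at h1
    have h3 : ‖b' - -(‖b'‖⁻¹ • b')‖ = 1 + ‖b'‖ := by
      have hn : ‖b'‖ ≠ 0 := norm_ne_zero_iff.2 hb
      have : b' - -(‖b'‖⁻¹ • b') = (1 + ‖b'‖⁻¹) • b' := by module
      rw [this, norm_smul, Real.norm_of_nonneg (by positivity)]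
      field_simp
      ring
    rw [h3] at h2
    have h4 : κ * (2 * ‖b'‖) = 0 := by nlinarith
    have h5 : ‖b'‖ ≠ 0 := norm_ne_zero_iff.2 hb
    have : κ * (2 * ‖b'‖) ≠ 0 := by positivity
    exact this h4
  subst hb'
  have hc1 : ‖c'‖ = 1 := by simpa using hx
  have h1 := hstar w₀ hw₀
  rw [hc1, zero_sub, norm_neg, hw₀] at h1
  have hDκ' : D = κ := by linarith
  refine ⟨κ • c', ?_, ?_⟩
  · rw [hΦ, homExt_smul _ hκpos, homExt_unit _ hc1]
    exact huκ
  · rw [norm_smul, Real.norm_of_nonneg hκpos.le, hc1, mul_one, hDκ']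

/-- The homogeneous extension is the restriction of a linear isometry. -/
theorem l1_side [Nontrivial Z] [Nontrivial W] (hE : IsL1Sum E) (hf : SphereIso f) :
    ∃ L : Z →ₗ[ℝ] Y, (∀ a, L a = homExt (fun z => f (E (z, (0 : W)))) a) ∧ ∀ a, ‖L a‖ = ‖a‖ := by
  set Φ := homExt (fun z => f (E (z, (0 : W)))) with hΦ
  have h0 : Φ 0 = 0 := homExt_zero _
  have hdiff : ∀ a a', ∃ c, Φ a - Φ a' = Φ c ∧ ‖c‖ = ‖a - a'‖ := fun a a' => l1_diff hE hf a a'
  have hdist : ∀ a a', ‖Φ a - Φ a'‖ = ‖a - a'‖ := by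
    intro a a'
    obtain ⟨c, hc, hcn⟩ := hdiff a a'
    have hnorm : ‖Φ c‖ = ‖c‖ := by
      by_cases hc0 : c = 0
      · simp [hc0, h0]
      · have hn : ‖c‖ ≠ 0 := norm_ne_zero_iff.2 hc0
        have hu := unit_of_ne hc0
        have hnE : ‖E (‖c‖⁻¹ • c, (0 : W))‖ = 1 := by rw [hE, hu, norm_zero, add_zero]
        simp only [hΦ, homExt]
        rw [norm_smul, hf.norm_one _ hnE, norm_norm, mul_one]
    rw [← hcn, ← hnorm, ← hc]
  have hneg : ∀ a, ∃ c, Φ c = -Φ a := by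
    intro a
    obtain ⟨c, hc, _⟩ := hdiff 0 a
    exact ⟨c, by rw [← hc, h0, zero_sub]⟩
  let V : Submodule ℝ Y :=
    { carrier := Set.range Φ
      add_mem' := by
        rintro _ _ ⟨a, rfl⟩ ⟨a', rfl⟩
        obtain ⟨c, hc⟩ := hneg a'
        obtain ⟨d, hd, _⟩ := hdiff a c
        exact ⟨d, by rw [← hd, hc, sub_neg_eq_add]⟩
      zero_mem' := ⟨0, h0⟩
      smul_mem' := by
        rintro r _ ⟨a, rfl⟩
        rcases lt_trichotomy r 0 with hr | hr | hr
        · obtain ⟨c, hc⟩ := hneg a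
          refine ⟨(-r) • c, ?_⟩
          rw [hΦ, homExt_smul _ (by linarith : 0 < -r), ← hΦ, hc, smul_neg, neg_smul, neg_neg]
        · exact ⟨0, by rw [hr, zero_smul, h0]⟩
        · exact ⟨r • a, by rw [hΦ, homExt_smul _ hr]⟩ }
  let g : Z → V := fun a => ⟨Φ a, ⟨a, rfl⟩⟩
  have hgiso : Isometry g := by
    refine Isometry.of_dist_eq fun a a' => ?_
    rw [Subtype.dist_eq, dist_eq_norm, dist_eq_norm]
    exact hdist a a'
  have hgsurj : Function.Surjective g := by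
    rintro ⟨_, ⟨a, rfl⟩⟩
    exact ⟨a, rfl⟩
  let ι : Z ≃ᵢ V := IsometryEquiv.mk (Equiv.ofBijective g ⟨hgiso.injective, hgsurj⟩) hgiso
  have hι0 : ι 0 = 0 := Subtype.ext h0
  let L₀ := ι.toRealLinearIsometryEquivOfMapZero hι0
  refine ⟨V.subtype ∘ₗ L₀.toLinearEquiv.toLinearMap, fun a => rfl, fun a => ?_⟩
  show ‖(L₀ a : Y)‖ = ‖a‖
  exact L₀.norm_map a

end side

/-- Mazur-Ulam property for `ℓ¹`-sums of two nontrivial finite-dimensional spaces. -/
theorem l1_sum_mazur_ulam [FiniteDimensional ℝ X] [Nontrivial Z] [Nontrivial W]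
    {E : (Z × W) ≃ₗ[ℝ] X} (hE : IsL1Sum E) {f : X → Y} (hf : SphereIso f) :
    ∃ T : X ≃ₗᵢ[ℝ] Y, ∀ x, ‖x‖ = 1 → T x = f x := by
  obtain ⟨z₀, hz₀⟩ := exists_norm_eq Z (zero_le_one' ℝ)
  have : Nontrivial X := by
    refine ⟨⟨E (z₀, 0), 0, fun h => ?_⟩⟩
    have h1 := hE z₀ (0 : W)
    rw [h, norm_zero, hz₀, norm_zero] at h1
    norm_num at h1
  have : FiniteDimensional ℝ Y := hf.finiteDimensional
  obtain ⟨LZ, hLZ, hLZn⟩ := l1_side hE hf
  set E' : (W × Z) ≃ₗ[ℝ] X := (LinearEquiv.prodComm ℝ W Z).trans E with hE'def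
  have hE'app : ∀ b a, E' (b, a) = E (a, b) := fun b a => rfl
  have hE' : IsL1Sum E' := fun b a => by rw [hE'app, hE, add_comm]
  obtain ⟨LW, hLW, hLWn⟩ := l1_side hE' hf
  set Ψ : X →ₗ[ℝ] Y := (LZ.coprod LW) ∘ₗ E.symm.toLinearMap with hΨ
  have hΨE : ∀ a b, Ψ (E (a, b)) = LZ a + LW b := fun a b => by simp [hΨ]
  have hfΨ : ∀ x, ‖x‖ = 1 → f x = Ψ x := by
    intro x hx
    obtain ⟨⟨a, b⟩, rfl⟩ := E.surjective x
    rw [hE] at hx
    rw [l1_decomp hE hf hx, hΨE, hLZ, hLW]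
    rfl
  have hΨ1 : ∀ x, ‖x‖ = 1 → ‖Ψ x‖ = 1 := fun x hx => by
    rw [← hfΨ x hx]; exact hf.norm_one x hx
  have hΨn : ∀ x, ‖Ψ x‖ = ‖x‖ := norm_map_of_sphere hΨ1
  have hinj : Function.Injective Ψ := by
    intro x y hxy
    have h1 := hΨn (x - y)
    rw [map_sub, hxy, sub_self, norm_zero] at h1
    exact sub_eq_zero.1 (norm_eq_zero.1 h1.symm)
  have hsurj : Function.Surjective Ψ := by
    intro y
    by_cases hy : y = 0
    · exact ⟨0, by rw [hy, map_zero]⟩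
    · obtain ⟨x, hx, hfx⟩ := hf.onto _ (unit_of_ne hy)
      refine ⟨‖y‖ • x, ?_⟩
      rw [map_smul, ← hfΨ x hx, hfx, smul_smul, mul_inv_cancel₀ (norm_ne_zero_iff.2 hy), one_smul]
  refine ⟨⟨LinearEquiv.ofBijective Ψ ⟨hinj, hsurj⟩, fun x => hΨn x⟩, fun x hx => ?_⟩
  rw [hfΨ x hx]
  rfl

end Vale.Agent.Lib.P084
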