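import Mathlib

open Set Metric

namespace Vale.Agent.Lib.P084

variable {E : Type*} [NormedAddCommGroup E] [NormedSpace ℝ E]
variable {Y : Type*} [NormedAddCommGroup Y] [NormedSpace ℝ Y]

/-- `p` has a ball of radius `ρ` inside `K`, relative to the affine span of `K`. -/
def RelBall (K : Set E) (p : E) (ρ : ℝ) : Prop :=
  0 < ρ ∧ ∀ x ∈ affineSpan ℝ K, ‖x - p‖ < ρ → x ∈ K

theorem exists_relBall [FiniteDimensional ℝ E] {K : Set E} (hK : Convex ℝ K) (hne : K.Nonempty) :
    ∃ p ∈ K, ∃ ρ, RelBall K p ρ := by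
  obtain ⟨p, hp⟩ := Set.Nonempty.intrinsicInterior hK hne
  obtain ⟨y, hy, rfl⟩ := mem_intrinsicInterior.1 hp
  have hyK : (y : E) ∈ K := by
    have := interior_subset hy
    exact this
  refine ⟨y, hyK, ?_⟩
  obtain ⟨ε, hε, hsub⟩ := Metric.mem_nhds_iff.1 (mem_interior_iff_mem_nhds.1 hy)
  refine ⟨ε, hε, fun x hx hxy => ?_⟩
  have : (⟨x, hx⟩ : affineSpan ℝ K) ∈ Metric.ball y ε := by
    rw [Metric.mem_ball, Subtype.dist_eq, dist_eq_norm]
    exact hxy
  exact hsub this

theorem RelBall.mono {K : Set E} {p : E} {ρ ρ' : ℝ} (h : RelBall K p ρ) (h0 : 0 < ρ') (hle : ρ' ≤ ρ) :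
    RelBall K p ρ' :=
  ⟨h0, fun x hx hxp => h.2 x hx (lt_of_lt_of_le hxp hle)⟩

theorem RelBall.combo {K : Set E} (hK : Convex ℝ K) {k p : E} {ρ s : ℝ} (hk : k ∈ K) (hp : p ∈ K)
    (h : RelBall K p ρ) (hs0 : 0 < s) (hs1 : s ≤ 1) :
    RelBall K ((1 - s) • k + s • p) (s * ρ) := by
  refine ⟨mul_pos hs0 h.1, fun x hx hxp => ?_⟩
  set p' := (1 - s) • k + s • p with hp'
  have hp'K : p' ∈ K := hK hk hp (by linarith) hs0.le (by ring)
  have hp'aff : p' ∈ affineSpan ℝ K := subset_affineSpan ℝ K hp'K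
  have hdir : x - p' ∈ (affineSpan ℝ K).direction := by
    simpa using AffineSubspace.vsub_mem_direction hx hp'aff
  have hx' : (1 / s) • (x - p') + p ∈ affineSpan ℝ K := by
    have := AffineSubspace.vadd_mem_of_mem_direction
      (Submodule.smul_mem _ (1 / s) hdir) (subset_affineSpan ℝ K hp)
    simpa using this
  have hnorm : ‖(1 / s) • (x - p') + p - p‖ < ρ := by
    rw [add_sub_cancel_right, norm_smul, Real.norm_of_nonneg (by positivity)]
    rw [div_mul_eq_mul_div, one_mul, div_lt_iff₀ hs0]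
    linarith
  have hx'K := h.2 _ hx' hnorm
  have hcomb := hK hk hx'K (by linarith : 0 ≤ 1 - s) hs0.le (by ring)
  have hval : (1 - s) • k + s • ((1 / s) • (x - p') + p) = x := by
    rw [smul_add, smul_smul, mul_one_div_cancel hs0.ne', one_smul, hp']
    abel
  rwa [hval] at hcomb

/-- Unit ball of the direction space of `K`, as a subset of the ambient space. -/
def dirBall (K : Set E) : Set E := {v | v ∈ (affineSpan ℝ K).direction ∧ ‖v‖ ≤ 1}

theorem mid_of_extreme {K : Set E} {T : E → Y}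
    (hT : ∀ a ∈ K, ∀ b ∈ K, ‖T a - T b‖ = ‖a - b‖) (hD : Convex ℝ (T '' K))
    {v : E} (hv : v ∈ (dirBall K).extremePoints ℝ) {x : E} {s : ℝ} (hs : 0 < s)
    (h1 : x + s • v ∈ K) (h2 : x - s • v ∈ K) :
    T x = (1 / 2 : ℝ) • (T (x + s • v) + T (x - s • v)) := by
  set a := x + s • v with ha
  set b := x - s • v with hb
  have hy : (1 / 2 : ℝ) • T a + (1 / 2 : ℝ) • T b ∈ T '' K :=
    hD (mem_image_of_mem T h1) (mem_image_of_mem T h2) (by norm_num) (by norm_num) (by norm_num)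
  obtain ⟨z, hz, hTz⟩ := hy
  have hv1 : ‖v‖ ≤ 1 := ((mem_extremePoints.1 hv).1).2
  have hab : ‖a - b‖ = 2 * s * ‖v‖ := by
    have : a - b = (2 * s) • v := by rw [ha, hb]; module
    rw [this, norm_smul, Real.norm_of_nonneg (by positivity)]
  have hza : ‖a - z‖ ≤ s := by
    rw [norm_sub_rev, ← hT z hz a h1, hTz]
    have : (1 / 2 : ℝ) • T a + (1 / 2 : ℝ) • T b - T a = (1 / 2 : ℝ) • (T b - T a) := by
      module
    rw [this, norm_smul, norm_sub_rev, hT a h1 b h2, hab]
    norm_num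
    nlinarith [norm_nonneg v]
  have hzb : ‖z - b‖ ≤ s := by
    rw [← hT z hz b h2, hTz]
    have : (1 / 2 : ℝ) • T a + (1 / 2 : ℝ) • T b - T b = (1 / 2 : ℝ) • (T a - T b) := by
      module
    rw [this, norm_smul, hT a h1 b h2, hab]
    norm_num
    nlinarith [norm_nonneg v]
  have hpmem : (1 / s) • (a - z) ∈ dirBall K := by
    refine ⟨Submodule.smul_mem _ _ ?_, ?_⟩
    · simpa using AffineSubspace.vsub_mem_direction (subset_affineSpan ℝ K h1)
        (subset_affineSpan ℝ K hz)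
    · rw [norm_smul, Real.norm_of_nonneg (by positivity), div_mul_eq_mul_div, one_mul,
        div_le_one hs]
      exact hza
  have hqmem : (1 / s) • (z - b) ∈ dirBall K := by
    refine ⟨Submodule.smul_mem _ _ ?_, ?_⟩
    · simpa using AffineSubspace.vsub_mem_direction (subset_affineSpan ℝ K hz)
        (subset_affineSpan ℝ K h2)
    · rw [norm_smul, Real.norm_of_nonneg (by positivity), div_mul_eq_mul_div, one_mul,
        div_le_one hs]
      exact hzb
  have hseg : v ∈ openSegment ℝ ((1 / s) • (a - z)) ((1 / s) • (z - b)) := by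
    refine ⟨1 / 2, 1 / 2, by norm_num, by norm_num, by norm_num, ?_⟩
    rw [ha, hb]
    have hs' : s ≠ 0 := hs.ne'
    have : (1 / 2 : ℝ) • (1 / s) • (x + s • v - z) + (1 / 2 : ℝ) • (1 / s) • (z - (x - s • v))
        = ((1 / s) * s) • v := by module
    rw [this, one_div_mul_cancel hs', one_smul]
  have hpv := ((mem_extremePoints.1 hv).2 _ hpmem _ hqmem hseg).1
  have hz' : z = x := by
    have h3 : a - z = s • v := by
      have := congrArg (fun u => s • u) hpv
      simp only [smul_smul, mul_one_div_cancel hs.ne', one_smul] at this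
      exact this
    have : z = a - s • v := by rw [← h3]; abel
    rw [this, ha]; abel
  rw [← hz', hTz]
  module

theorem span_extreme [FiniteDimensional ℝ E] (V : Submodule ℝ E) :
    V ≤ Submodule.span ℝ (({v | v ∈ V ∧ ‖v‖ ≤ 1} : Set E).extremePoints ℝ) := by
  set B : Set E := {v | v ∈ V ∧ ‖v‖ ≤ 1} with hB
  have hBeq : B = (V : Set E) ∩ closedBall 0 1 := by
    ext v; simp [hB]
  have hcomp : IsCompact B := by
    rw [hBeq]
    exact (isCompact_closedBall (0 : E) 1).inter_left V.closed_of_finiteDimensional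
  have hconv : Convex ℝ B := by
    rw [hBeq]
    exact V.convex.inter (convex_closedBall 0 1)
  have hKM := closure_convexHull_extremePoints hcomp hconv
  set S := Submodule.span ℝ (B.extremePoints ℝ) with hS
  have hclosed : IsClosed (S : Set E) := S.closed_of_finiteDimensional
  have hsub : B ⊆ S := by
    rw [← hKM]
    exact closure_minimal (convexHull_min Submodule.subset_span S.convex) hclosed
  intro v hv
  by_cases h0 : v = 0
  · rw [h0]; exact S.zero_mem
  · have hn : ‖v‖ ≠ 0 := norm_ne_zero_iff.2 h0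
    have hu : ‖v‖⁻¹ • v ∈ B := by
      refine ⟨V.smul_mem _ hv, ?_⟩
      rw [norm_smul, norm_inv, norm_norm, inv_mul_cancel₀ hn]
    have := S.smul_mem ‖v‖ (hsub hu)
    rwa [smul_smul, mul_inv_cancel₀ hn, one_smul] at this

/-- The image of a relatively interior point is relatively interior. -/
theorem relInt_image [FiniteDimensional ℝ E] [FiniteDimensional ℝ Y] {K : Set E}
    (hK : Convex ℝ K) {T : E → Y}
    (hT : ∀ a ∈ K, ∀ b ∈ K, ‖T a - T b‖ = ‖a - b‖) (hD : Convex ℝ (T '' K))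
    {c : E} {ρ : ℝ} (hc : RelBall K c ρ) (hcK : c ∈ K) :
    ∃ ρ', RelBall (T '' K) (T c) ρ' := by
  classical
  set V := (affineSpan ℝ K).direction with hV
  set X := (dirBall K).extremePoints ℝ with hX
  have hXV : X ⊆ V := fun v hv => ((mem_extremePoints.1 hv).1).1
  have hVspan : V ≤ Submodule.span ℝ X := span_extreme V
  obtain ⟨b, hbX, hbspan, hbli⟩ := exists_linearIndependent ℝ X
  have hVb : V ≤ Submodule.span ℝ b := by rw [hbspan]; exact hVspan
  have : Finite b := hbli.finite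
  let _ : Fintype b := Fintype.ofFinite b
  set N := Fintype.card b with hN
  set Λ : (b → ℝ) →ₗ[ℝ] E := Fintype.linearCombination ℝ (fun i : b => (i : E)) with hΛ
  have hΛapp : ∀ s, Λ s = ∑ i, s i • (i : E) := fun s => by
    rw [hΛ, Fintype.linearCombination_apply]
  have hker : LinearMap.ker Λ = ⊥ := by
    rw [LinearMap.ker_eq_bot']
    intro s hs
    rw [hΛapp] at hs
    funext i
    exact Fintype.linearIndependent_iff.1 hbli s hs i
  obtain ⟨K₀, hK₀, hanti⟩ := LinearMap.exists_antilipschitzWith Λ hker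
  have hρ := hc.1
  set τ : ℝ := ρ / (4 * (N + 1)) with hτ
  have hτ0 : 0 < τ := by positivity
  have hbnd : 2 * τ * N < ρ := by
    rw [hτ]
    have : (0 : ℝ) < 4 * (N + 1) := by positivity
    have h2 : 2 * (ρ / (4 * (N + 1))) * N = ρ * (2 * N / (4 * (N + 1))) := by
      field_simp
    rw [h2]
    have h3 : 2 * (N : ℝ) / (4 * (N + 1)) < 1 := by
      rw [div_lt_one this]
      have : (0 : ℝ) ≤ N := Nat.cast_nonneg N
      linarith
    nlinarith
  set s₀ : b → ℝ := fun _ => τ with hs₀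
  have hnormv : ∀ i : b, ‖(i : E)‖ ≤ 1 := fun i =>
    ((mem_extremePoints.1 (hbX i.2)).1).2
  have hmemdir : ∀ i : b, (i : E) ∈ V := fun i => hXV (hbX i.2)
  -- points near `c` in the direction space stay in `K`
  have hcaff : c ∈ affineSpan ℝ K := subset_affineSpan ℝ K hcK
  have hinK : ∀ u : E, u ∈ V → ‖u‖ < ρ → c + u ∈ K := by
    intro u hu hnu
    refine hc.2 _ ?_ (by simpa using hnu)
    have := AffineSubspace.vadd_mem_of_mem_direction hu hcaff
    rw [vadd_eq_add, add_comm] at this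
    exact this
  have hsumnorm : ∀ (t : b → ℝ), (∀ i, |t i| ≤ 2 * τ) → ∀ w : Finset b,
      ‖∑ i ∈ w, t i • (i : E)‖ ≤ ∑ i ∈ w, |t i| := by
    intro t _ w
    refine (norm_sum_le _ _).trans (Finset.sum_le_sum fun i _ => ?_)
    rw [norm_smul, Real.norm_eq_abs]
    exact mul_le_of_le_one_right (abs_nonneg _) (hnormv i)
  have hsumdir : ∀ (t : b → ℝ) (w : Finset b), ∑ i ∈ w, t i • (i : E) ∈ V := by
    intro t w
    exact V.sum_mem fun i _ => V.smul_mem _ (hmemdir i)
  -- target point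
  set q := c + Λ s₀ with hq
  have hqK : q ∈ K := by
    refine hinK _ ?_ ?_
    · rw [hΛapp]; exact hsumdir s₀ Finset.univ
    · rw [hΛapp]
      have h1 := hsumnorm s₀ (fun i => by simp only [hs₀, abs_of_pos hτ0]; linarith) Finset.univ
      have h2 : ∑ i : b, |s₀ i| = N * τ := by
        simp [hs₀, abs_of_pos hτ0, hN]
      have h3 : (N : ℝ) * τ ≤ 2 * τ * N := by
        have : (0 : ℝ) ≤ N := Nat.cast_nonneg N
        nlinarith
      calc _ ≤ _ := h1
        _ = N * τ := h2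
        _ ≤ _ := h3
        _ < ρ := hbnd
  -- a relatively interior point of the image close to `T q`
  have hDne : (T '' K).Nonempty := ⟨T c, mem_image_of_mem T hcK⟩
  obtain ⟨y₀, hy₀D, ρ₀, hy₀⟩ := exists_relBall hD hDne
  set η : ℝ := τ / (K₀ + 1) with hη
  have hη0 : 0 < η := by
    have : (0 : ℝ) < (K₀ : ℝ) + 1 := by positivity
    positivity
  set ε : ℝ := min 1 (η / (2 * (‖y₀ - T q‖ + 1))) with hε
  have hε0 : 0 < ε := by
    refine lt_min one_pos ?_
    have : 0 < 2 * (‖y₀ - T q‖ + 1) := by positivity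
    positivity
  have hε1 : ε ≤ 1 := min_le_left _ _
  have hTqD : T q ∈ T '' K := mem_image_of_mem T hqK
  have hy := RelBall.combo hD hTqD hy₀D hy₀ hε0 hε1
  set y := (1 - ε) • T q + ε • y₀ with hydef
  have hyD : y ∈ T '' K := hD hTqD hy₀D (by linarith) hε0.le (by ring)
  obtain ⟨x, hxK, hTx⟩ := hyD
  have hxq : ‖x - q‖ < η := by
    rw [← hT x hxK q hqK, hTx, hydef]
    have : (1 - ε) • T q + ε • y₀ - T q = ε • (y₀ - T q) := by module
    rw [this, norm_smul, Real.norm_of_nonneg hε0.le]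
    have h1 : ε ≤ η / (2 * (‖y₀ - T q‖ + 1)) := min_le_right _ _
    have h2 : 0 < 2 * (‖y₀ - T q‖ + 1) := by positivity
    have h3 : ε * (2 * (‖y₀ - T q‖ + 1)) ≤ η := (le_div_iff₀ h2).1 h1
    nlinarith [norm_nonneg (y₀ - T q)]
  -- coordinates of `x - c`
  have hxdir : x - c ∈ V := by
    simpa using AffineSubspace.vsub_mem_direction (subset_affineSpan ℝ K hxK) hcaff
  have hxspan : x - c ∈ Submodule.span ℝ (Set.range (fun i : b => (i : E))) := by
    have : Set.range (fun i : b => (i : E)) = b := by simp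
    rw [this]
    exact hVb hxdir
  obtain ⟨s, hs⟩ := (Submodule.mem_span_range_iff_exists_fun ℝ).1 hxspan
  have hΛs : Λ s = x - c := by rw [hΛapp]; exact hs
  have hsclose : ‖s - s₀‖ < τ := by
    have h1 := hanti.le_mul_dist s s₀
    rw [dist_eq_norm, dist_eq_norm, hΛs] at h1
    have h2 : x - c - Λ s₀ = x - q := by rw [hq]; abel
    rw [h2] at h1
    have hK1 : (0 : ℝ) < (K₀ : ℝ) + 1 := by positivity
    have hK2 : (K₀ : ℝ) * ‖x - q‖ < τ := by
      have h3 : ‖x - q‖ * ((K₀ : ℝ) + 1) < τ := (lt_div_iff₀ hK1).1 hxq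
      nlinarith [norm_nonneg (x - q)]
    calc ‖s - s₀‖ ≤ (K₀ : ℝ) * ‖x - q‖ := h1
      _ < τ := hK2
  have hscoord : ∀ i, 0 < s i ∧ s i < 2 * τ := by
    intro i
    have h1 : ‖(s - s₀) i‖ ≤ ‖s - s₀‖ := norm_le_pi_norm _ i
    have h2 : |s i - τ| < τ := by
      have : ‖(s - s₀) i‖ = |s i - τ| := by simp [hs₀, Real.norm_eq_abs]
      rw [← this]; linarith
    rw [abs_lt] at h2
    constructor <;> linarith [h2.1, h2.2]
  -- total mass of coordinates
  have hsum : ∀ w : Finset b, ∑ i ∈ w, s i < ρ ∧ ∑ i ∈ w, |s i| = ∑ i ∈ w, s i := by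
    intro w
    have habs : ∑ i ∈ w, |s i| = ∑ i ∈ w, s i :=
      Finset.sum_congr rfl fun i _ => abs_of_pos (hscoord i).1
    refine ⟨?_, habs⟩
    have h1 : ∑ i ∈ w, s i ≤ ∑ i : b, s i :=
      Finset.sum_le_sum_of_subset_of_nonneg (Finset.subset_univ w)
        (fun i _ _ => (hscoord i).1.le)
    have h2 : ∑ i : b, s i ≤ N * (2 * τ) := by
      have : ∑ i : b, s i ≤ ∑ _i : b, (2 * τ) :=
        Finset.sum_le_sum fun i _ => (hscoord i).2.le
      simpa [hN] using this
    nlinarith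
  set pt : Finset b → E := fun w => c + ∑ i ∈ w, s i • (i : E) with hpt
  have hptK : ∀ w, pt w ∈ K := by
    intro w
    refine hinK _ (hsumdir s w) ?_
    have h1 := hsumnorm s (fun i => by rw [abs_of_pos (hscoord i).1]; exact (hscoord i).2.le) w
    rw [(hsum w).2] at h1
    exact lt_of_le_of_lt h1 (hsum w).1
  -- the downward induction on subsets of the frame
  have hstep : ∀ (i : b) (w : Finset b), i ∉ w → (∃ ρ', RelBall (T '' K) (T (pt (insert i w))) ρ') →
      ∃ ρ', RelBall (T '' K) (T (pt w)) ρ' := by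
    rintro i w hi ⟨ρ', hρ'⟩
    have hplus : pt w + s i • (i : E) = pt (insert i w) := by
      simp only [hpt, Finset.sum_insert hi]; abel
    have hminus : pt w - s i • (i : E) ∈ K := by
      have : pt w - s i • (i : E) = c + (∑ j ∈ w, s j • (j : E) + (-s i) • (i : E)) := by
        simp only [hpt, neg_smul]; abel
      rw [this]
      refine hinK _ (V.add_mem (hsumdir s w) (V.smul_mem _ (hmemdir i))) ?_
      have h1 := hsumnorm s (fun i => by rw [abs_of_pos (hscoord i).1]; exact (hscoord i).2.le) w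
      rw [(hsum w).2] at h1
      have h2 : ‖(-s i) • (i : E)‖ ≤ s i := by
        rw [norm_smul, norm_neg, Real.norm_eq_abs, abs_of_pos (hscoord i).1]
        exact mul_le_of_le_one_right (hscoord i).1.le (hnormv i)
      have h3 := (hsum (insert i w)).1
      rw [Finset.sum_insert hi] at h3
      calc _ ≤ _ := norm_add_le _ _
        _ ≤ ∑ j ∈ w, s j + s i := add_le_add h1 h2
        _ < ρ := by linarith
    have hplusK : pt w + s i • (i : E) ∈ K := by rw [hplus]; exact hptK _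
    have hmid := mid_of_extreme hT hD (hbX i.2) (hscoord i).1 hplusK hminus
    have hcomb := RelBall.combo hD (mem_image_of_mem T hminus)
      (mem_image_of_mem T (hptK (insert i w))) hρ' (by norm_num : (0 : ℝ) < 1 / 2)
      (by norm_num : (1 / 2 : ℝ) ≤ 1)
    have heq : T (pt w) = (1 - 1 / 2 : ℝ) • T (pt w - s i • (i : E)) + (1 / 2 : ℝ) • T (pt (insert i w)) := by
      rw [hmid, hplus]
      module
    rw [heq]
    exact ⟨_, hcomb⟩
  have hall : ∀ (u w : Finset b), Disjoint u w →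
      (∃ ρ', RelBall (T '' K) (T (pt (u ∪ w))) ρ') → ∃ ρ', RelBall (T '' K) (T (pt w)) ρ' := by
    intro u
    induction u using Finset.induction_on with
    | empty =>
      intro w _ h
      simpa using h
    | insert i u hiu ih =>
      intro w hdisj h
      have hiw : i ∉ w := Finset.disjoint_left.1 hdisj (Finset.mem_insert_self i u)
      have hdisj' : Disjoint u (insert i w) := by
        rw [Finset.disjoint_insert_right]
        refine ⟨hiu, ?_⟩
        exact Finset.disjoint_of_subset_left (Finset.subset_insert i u) hdisj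
      have heq : u ∪ insert i w = insert i u ∪ w := by
        ext j; simp only [Finset.mem_union, Finset.mem_insert]; tauto
      have := ih (insert i w) hdisj' (by rw [heq]; exact h)
      exact hstep i w hiw this
  have htop : ∃ ρ', RelBall (T '' K) (T (pt Finset.univ)) ρ' := by
    have hptx : pt Finset.univ = x := by
      simp only [hpt]
      rw [hs]; abel
    rw [hptx, hTx]
    exact ⟨_, hy⟩
  have := hall Finset.univ ∅ (Finset.disjoint_empty_right _) (by simpa using htop)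
  simpa [hpt] using this

/-- A bijective isometric pair on `L`. -/
def BijIso (L : Set E) (g g' : E → E) : Prop :=
  (∀ x ∈ L, g x ∈ L) ∧ (∀ x ∈ L, g' x ∈ L) ∧ (∀ x ∈ L, g' (g x) = x) ∧ (∀ x ∈ L, g (g' x) = x) ∧
    (∀ x ∈ L, ∀ y ∈ L, ‖g x - g y‖ = ‖x - y‖)

/-- Vaisala's doubling argument: every bijective isometry of `L` fixes the centre. -/
theorem doubling {L : Set E} {σ : E → E} {m : E} {M : ℝ} (hm : m ∈ L)
    (hσL : ∀ x ∈ L, σ x ∈ L) (hσσ : ∀ x ∈ L, σ (σ x) = x)
    (hσiso : ∀ x ∈ L, ∀ y ∈ L, ‖σ x - σ y‖ = ‖x - y‖) (hσm : σ m = m)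
    (hσd : ∀ x ∈ L, ‖σ x - x‖ = 2 * ‖x - m‖) (hM : ∀ x ∈ L, ∀ y ∈ L, ‖x - y‖ ≤ M)
    {g g' : E → E} (hg : BijIso L g g') : g m = m := by
  have key : ∀ n : ℕ, ∀ g g' : E → E, BijIso L g g' → 2 ^ n * ‖g m - m‖ ≤ M := by
    intro n
    induction n with
    | zero =>
      intro g g' hg
      simpa using hM _ (hg.1 m hm) _ hm
    | succ n ih =>
      rintro g g' ⟨h1, h2, h3, h4, h5⟩
      have hstar : BijIso L (fun x => σ (g' (σ (g x)))) (fun x => g' (σ (g (σ x)))) := by
        refine ⟨fun x hx => hσL _ (h2 _ (hσL _ (h1 x hx))),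
          fun x hx => h2 _ (hσL _ (h1 _ (hσL x hx))), fun x hx => ?_, fun x hx => ?_,
          fun x hx y hy => ?_⟩
        · have hA : σ (g' (σ (g x))) ∈ L := hσL _ (h2 _ (hσL _ (h1 x hx)))
          show g' (σ (g (σ (σ (g' (σ (g x))))))) = x
          rw [hσσ _ (h2 _ (hσL _ (h1 x hx))), h4 _ (hσL _ (h1 x hx)), hσσ _ (h1 x hx), h3 x hx]
        · show σ (g' (σ (g (g' (σ (g (σ x))))))) = x
          rw [h4 _ (hσL _ (h1 _ (hσL x hx))), hσσ _ (h1 _ (hσL x hx)), h3 _ (hσL x hx), hσσ x hx]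
        · have hiso' : ∀ u ∈ L, ∀ v ∈ L, ‖g' u - g' v‖ = ‖u - v‖ := by
            intro u hu v hv
            rw [← h5 _ (h2 u hu) _ (h2 v hv), h4 u hu, h4 v hv]
          show ‖σ (g' (σ (g x))) - σ (g' (σ (g y)))‖ = ‖x - y‖
          rw [hσiso _ (h2 _ (hσL _ (h1 x hx))) _ (h2 _ (hσL _ (h1 y hy))),
            hiso' _ (hσL _ (h1 x hx)) _ (hσL _ (h1 y hy)), hσiso _ (h1 x hx) _ (h1 y hy),
            h5 x hx y hy]
      have h6 := ih _ _ hstar
      have hval : ‖σ (g' (σ (g m))) - m‖ = 2 * ‖g m - m‖ := by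
        have hA : g' (σ (g m)) ∈ L := h2 _ (hσL _ (h1 m hm))
        calc ‖σ (g' (σ (g m))) - m‖ = ‖σ (g' (σ (g m))) - σ m‖ := by rw [hσm]
          _ = ‖g' (σ (g m)) - m‖ := hσiso _ hA _ hm
          _ = ‖g (g' (σ (g m))) - g m‖ := (h5 _ hA _ hm).symm
          _ = ‖σ (g m) - g m‖ := by rw [h4 _ (hσL _ (h1 m hm))]
          _ = 2 * ‖g m - m‖ := hσd _ (h1 m hm)
      simp only [hval] at h6
      rw [pow_succ]
      linarith
  by_contra hne
  have hpos : 0 < ‖g m - m‖ := norm_pos_iff.2 (sub_ne_zero.2 hne)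
  obtain ⟨n, hn⟩ := pow_unbounded_of_one_lt (M / ‖g m - m‖) (by norm_num : (1 : ℝ) < 2)
  have := key n g g' hg
  rw [div_lt_iff₀ hpos] at hn
  linarith

theorem refl_mem_aff {K : Set E} {a b x : E} (ha : a ∈ affineSpan ℝ K) (hb : b ∈ affineSpan ℝ K)
    (hx : x ∈ affineSpan ℝ K) : a + b - x ∈ affineSpan ℝ K := by
  have hdir : b - x ∈ (affineSpan ℝ K).direction := by
    simpa using AffineSubspace.vsub_mem_direction hb hx
  have := AffineSubspace.vadd_mem_of_mem_direction hdir ha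
  have h2 : a + b - x = (b - x) +ᵥ a := by rw [vadd_eq_add]; abel
  rw [h2]; exact this

/-- Local Mazur-Ulam: near a point which is relatively interior on both sides, midpoints go to
midpoints. -/
theorem local_mid {K : Set E} (hK : Convex ℝ K) {T : E → Y}
    (hT : ∀ a ∈ K, ∀ b ∈ K, ‖T a - T b‖ = ‖a - b‖) (hD : Convex ℝ (T '' K))
    {c : E} {ρ : ℝ} (hcK : c ∈ K) (h1 : RelBall K c ρ) (h2 : RelBall (T '' K) (T c) ρ)
    {a b : E} (ha : a ∈ K) (hb : b ∈ K) (hac : ‖a - c‖ < ρ / 4) (hbc : ‖b - c‖ < ρ / 4) :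
    T ((1 / 2 : ℝ) • (a + b)) = (1 / 2 : ℝ) • (T a + T b) := by
  set r := ‖a - b‖ / 2 with hr
  have hr0 : 0 ≤ r := by positivity
  have hrlt : r < ρ / 4 := by
    have : ‖a - b‖ ≤ ‖a - c‖ + ‖b - c‖ := by
      have := norm_sub_le_norm_sub_add_norm_sub a c b
      rw [norm_sub_rev c b] at this
      exact this
    rw [hr]; linarith
  set D := T '' K with hDdef
  set L : Set E := {x | x ∈ affineSpan ℝ K ∧ ‖x - a‖ = r ∧ ‖x - b‖ = r} with hL
  set L' : Set Y := {y | y ∈ affineSpan ℝ D ∧ ‖y - T a‖ = r ∧ ‖y - T b‖ = r} with hL'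
  have hρ := h1.1
  have hLK : ∀ x ∈ L, x ∈ K := by
    rintro x ⟨hx, hxa, _⟩
    refine h1.2 x hx ?_
    have := norm_sub_le_norm_sub_add_norm_sub x a c
    linarith
  have hL'D : ∀ y ∈ L', y ∈ D := by
    rintro y ⟨hy, hya, _⟩
    refine h2.2 y hy ?_
    have := norm_sub_le_norm_sub_add_norm_sub y (T a) (T c)
    rw [hT a ha c hcK] at this
    linarith
  set T' : Y → E := Function.invFunOn T K with hT'
  have hT'mem : ∀ y ∈ D, T' y ∈ K := fun y hy => Function.invFunOn_mem hy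
  have hT'eq : ∀ y ∈ D, T (T' y) = y := fun y hy => Function.invFunOn_eq hy
  have hT'T : ∀ x ∈ K, T' (T x) = x := by
    intro x hx
    have h3 := hT'eq (T x) (mem_image_of_mem T hx)
    have h4 := hT _ (hT'mem _ (mem_image_of_mem T hx)) x hx
    rw [h3, sub_self, norm_zero] at h4
    exact (sub_eq_zero.1 (norm_eq_zero.1 h4.symm))
  have hTL : ∀ x ∈ L, T x ∈ L' := by
    intro x hx
    have hxK := hLK x hx
    refine ⟨subset_affineSpan ℝ D (mem_image_of_mem T hxK), ?_, ?_⟩
    · rw [hT x hxK a ha]; exact hx.2.1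
    · rw [hT x hxK b hb]; exact hx.2.2
  have hT'L : ∀ y ∈ L', T' y ∈ L := by
    intro y hy
    have hyD := hL'D y hy
    have hK' := hT'mem y hyD
    refine ⟨subset_affineSpan ℝ K hK', ?_, ?_⟩
    · rw [← hT _ hK' a ha, hT'eq y hyD]; exact hy.2.1
    · rw [← hT _ hK' b hb, hT'eq y hyD]; exact hy.2.2
  set σ : E → E := fun x => a + b - x with hσ
  set σ' : Y → Y := fun y => T a + T b - y with hσ'
  have haA := subset_affineSpan ℝ K ha
  have hbA := subset_affineSpan ℝ K hb
  have hTaA := subset_affineSpan ℝ D (mem_image_of_mem T ha)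
  have hTbA := subset_affineSpan ℝ D (mem_image_of_mem T hb)
  have hσL : ∀ x ∈ L, σ x ∈ L := by
    rintro x ⟨hx, hxa, hxb⟩
    refine ⟨refl_mem_aff haA hbA hx, ?_, ?_⟩
    · have : σ x - a = -(x - b) := by simp only [hσ]; abel
      rw [this, norm_neg]; exact hxb
    · have : σ x - b = -(x - a) := by simp only [hσ]; abel
      rw [this, norm_neg]; exact hxa
  have hσ'L : ∀ y ∈ L', σ' y ∈ L' := by
    rintro y ⟨hy, hya, hyb⟩
    refine ⟨refl_mem_aff hTaA hTbA hy, ?_, ?_⟩
    · have : σ' y - T a = -(y - T b) := by simp only [hσ']; abel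
      rw [this, norm_neg]; exact hyb
    · have : σ' y - T b = -(y - T a) := by simp only [hσ']; abel
      rw [this, norm_neg]; exact hya
  have hσσ : ∀ x, σ (σ x) = x := fun x => by simp only [hσ]; abel
  have hσ'σ' : ∀ y, σ' (σ' y) = y := fun y => by simp only [hσ']; abel
  have hσiso : ∀ x y, ‖σ x - σ y‖ = ‖x - y‖ := fun x y => by
    have : σ x - σ y = -(x - y) := by simp only [hσ]; abel
    rw [this, norm_neg]
  have hσ'iso : ∀ x y, ‖σ' x - σ' y‖ = ‖x - y‖ := fun x y => by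
    have : σ' x - σ' y = -(x - y) := by simp only [hσ']; abel
    rw [this, norm_neg]
  set m := (1 / 2 : ℝ) • (a + b) with hm
  have hmK : m ∈ K := by
    have := hK ha hb (by norm_num : (0 : ℝ) ≤ 1 / 2) (by norm_num : (0 : ℝ) ≤ 1 / 2) (by norm_num)
    have h3 : (1 / 2 : ℝ) • a + (1 / 2 : ℝ) • b = m := by rw [hm, smul_add]
    rwa [h3] at this
  have hma : m - a = (1 / 2 : ℝ) • (b - a) := by rw [hm]; module
  have hmb : m - b = (1 / 2 : ℝ) • (a - b) := by rw [hm]; module
  have hmL : m ∈ L := by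
    refine ⟨subset_affineSpan ℝ K hmK, ?_, ?_⟩
    · rw [hma, norm_smul, norm_sub_rev b a, hr]; norm_num; ring
    · rw [hmb, norm_smul, hr]; norm_num; ring
  have hσm : σ m = m := by simp only [hσ, hm]; module
  have hσd : ∀ x ∈ L, ‖σ x - x‖ = 2 * ‖x - m‖ := by
    intro x _
    have : σ x - x = (-2 : ℝ) • (x - m) := by simp only [hσ, hm]; module
    rw [this, norm_smul]; norm_num
  have hdiam : ∀ x ∈ L, ∀ y ∈ L, ‖x - y‖ ≤ 2 * r := by
    rintro x ⟨_, hxa, _⟩ y ⟨_, hya, _⟩
    have := norm_sub_le_norm_sub_add_norm_sub x a y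
    rw [norm_sub_rev a y] at this
    linarith
  have hT'iso : ∀ u ∈ D, ∀ v ∈ D, ‖T' u - T' v‖ = ‖u - v‖ := by
    intro u hu v hv
    rw [← hT _ (hT'mem u hu) _ (hT'mem v hv), hT'eq u hu, hT'eq v hv]
  have hbij : BijIso L (fun x => T' (σ' (T (σ x)))) (fun x => σ (T' (σ' (T x)))) := by
    refine ⟨fun x hx => hT'L _ (hσ'L _ (hTL _ (hσL x hx))),
      fun x hx => hσL _ (hT'L _ (hσ'L _ (hTL x hx))), fun x hx => ?_, fun x hx => ?_,
      fun x hx y hy => ?_⟩
    · have hA := hσ'L _ (hTL _ (hσL x hx))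
      show σ (T' (σ' (T (T' (σ' (T (σ x))))))) = x
      rw [hT'eq _ (hL'D _ hA), hσ'σ', hT'T _ (hLK _ (hσL x hx)), hσσ]
    · have hA := hσ'L _ (hTL x hx)
      show T' (σ' (T (σ (σ (T' (σ' (T x))))))) = x
      rw [hσσ, hT'eq _ (hL'D _ hA), hσ'σ', hT'T _ (hLK x hx)]
    · have hA := hσ'L _ (hTL _ (hσL x hx))
      have hB := hσ'L _ (hTL _ (hσL y hy))
      show ‖T' (σ' (T (σ x))) - T' (σ' (T (σ y)))‖ = ‖x - y‖
      rw [hT'iso _ (hL'D _ hA) _ (hL'D _ hB), hσ'iso, hT _ (hLK _ (hσL x hx)) _ (hLK _ (hσL y hy)),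
        hσiso]
  have hfix := doubling hmL (fun x hx => hσL x hx) (fun x _ => hσσ x) (fun x _ y _ => hσiso x y) hσm
    hσd hdiam hbij
  have hfix' : T' (σ' (T m)) = m := by
    have : (fun x => T' (σ' (T (σ x)))) m = m := hfix
    simpa only [hσm] using this
  have hA := hσ'L _ (hTL m hmL)
  have h5 : σ' (T m) = T m := by
    have := hT'eq _ (hL'D _ hA)
    rw [hfix'] at this
    exact this.symm
  have h6 : T a + T b - T m = T m := h5
  have h7 : (2 : ℝ) • T m = T a + T b := by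
    rw [two_smul]
    nth_rewrite 1 [← h6]
    abel
  calc T m = (1 / 2 : ℝ) • ((2 : ℝ) • T m) := by rw [smul_smul]; norm_num
    _ = _ := by rw [h7]

/-- A maximum principle for continuous functions that are locally midpoint convex. -/
theorem zero_of_local_sub {G : ℝ → ℝ} (hc : ContinuousOn G (Icc 0 1)) (h0 : G 0 = 0) (h1 : G 1 = 0)
    (hnn : ∀ t ∈ Icc (0 : ℝ) 1, 0 ≤ G t)
    (hloc : ∀ t ∈ Ioo (0 : ℝ) 1, ∃ δ > 0, ∀ h, 0 < h → h < δ →
      t - h ∈ Icc (0 : ℝ) 1 ∧ t + h ∈ Icc (0 : ℝ) 1 ∧ G t ≤ (G (t - h) + G (t + h)) / 2) :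
    ∀ t ∈ Icc (0 : ℝ) 1, G t = 0 := by
  obtain ⟨tm, htm, hmax⟩ := isCompact_Icc.exists_isMaxOn (nonempty_Icc.2 zero_le_one) hc
  have hmax' : ∀ t ∈ Icc (0 : ℝ) 1, G t ≤ G tm := fun t ht => hmax ht
  by_cases hM : G tm ≤ 0
  · intro t ht
    exact le_antisymm ((hmax' t ht).trans hM) (hnn t ht)
  exfalso
  rw [not_le] at hM
  set A : Set ℝ := Icc 0 1 ∩ G ⁻¹' {G tm} with hA
  have hAcomp : IsCompact A := by
    have : IsClosed A := hc.preimage_isClosed_of_isClosed isClosed_Icc isClosed_singleton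
    exact isCompact_Icc.of_isClosed_subset this inter_subset_left
  have hAne : A.Nonempty := ⟨tm, htm, rfl⟩
  have hs := hAcomp.sInf_mem hAne
  set ts := sInf A with hts
  have hGts : G ts = G tm := hs.2
  have hts0 : ts ≠ 0 := by
    intro h; rw [h, h0] at hGts; linarith
  have hts1 : ts ≠ 1 := by
    intro h; rw [h, h1] at hGts; linarith
  have htsI : ts ∈ Ioo (0 : ℝ) 1 :=
    ⟨lt_of_le_of_ne hs.1.1 hts0.symm, lt_of_le_of_ne hs.1.2 hts1⟩
  obtain ⟨δ, hδ, hloc'⟩ := hloc ts htsI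
  obtain ⟨hm, hp, hle⟩ := hloc' (δ / 2) (by linarith) (by linarith)
  have hnotA : ts - δ / 2 ∉ A := fun hmem => by
    have := csInf_le hAcomp.bddBelow hmem
    linarith
  have hlt : G (ts - δ / 2) < G tm := by
    refine lt_of_le_of_ne (hmax' _ hm) fun heq => hnotA ⟨hm, heq⟩
  have hle2 := hmax' _ hp
  linarith

/-- Affinity along a segment with relatively interior endpoints. -/
theorem segment_affine [FiniteDimensional ℝ E] [FiniteDimensional ℝ Y] {K : Set E}
    (hK : Convex ℝ K) {T : E → Y}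
    (hT : ∀ a ∈ K, ∀ b ∈ K, ‖T a - T b‖ = ‖a - b‖) (hD : Convex ℝ (T '' K))
    {a b : E} (ha : a ∈ K) (hb : b ∈ K) (ra : ∃ ρ, RelBall K a ρ) (rb : ∃ ρ, RelBall K b ρ) :
    ∀ t ∈ Icc (0 : ℝ) 1, T ((1 - t) • a + t • b) = (1 - t) • T a + t • T b := by
  set c : ℝ → E := fun t => (1 - t) • a + t • b with hc
  have hcK : ∀ t ∈ Icc (0 : ℝ) 1, c t ∈ K := fun t ht =>
    hK ha hb (by linarith [ht.2]) ht.1 (by ring)
  set G : ℝ → ℝ := fun t => ‖T (c t) - ((1 - t) • T a + t • T b)‖ with hG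
  have hcdist : ∀ s t, c s - c t = (s - t) • (b - a) := fun s t => by
    simp only [hc]; module
  have hTc : ContinuousOn (fun t => T (c t)) (Icc 0 1) := by
    have hL : LipschitzOnWith ‖b - a‖₊ (fun t => T (c t)) (Icc 0 1) := by
      refine LipschitzOnWith.of_dist_le_mul fun s hs t ht => ?_
      rw [dist_eq_norm, hT _ (hcK s hs) _ (hcK t ht), hcdist, norm_smul, dist_eq_norm,
        Real.norm_eq_abs, coe_nnnorm, mul_comm]
    exact hL.continuousOn
  have hGc : ContinuousOn G (Icc 0 1) := by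
    refine ContinuousOn.norm (hTc.sub (Continuous.continuousOn ?_))
    fun_prop
  have hG0 : G 0 = 0 := by simp [hG, hc]
  have hG1 : G 1 = 0 := by simp [hG, hc]
  have hGz := zero_of_local_sub hGc hG0 hG1 (fun t _ => norm_nonneg _) ?_
  · intro t ht
    exact sub_eq_zero.1 (norm_eq_zero.1 (hGz t ht))
  intro t ht
  obtain ⟨ρa, hρa⟩ := ra
  obtain ⟨ρb, hρb⟩ := rb
  have hrel : RelBall K (c t) (t * ρb) := RelBall.combo hK ha hb hρb ht.1 ht.2.le
  obtain ⟨ρ', hρ'⟩ := relInt_image hK hT hD hrel (hcK t ⟨ht.1.le, ht.2.le⟩)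
  set ρ := min (t * ρb) ρ' with hρ
  have hρ0 : 0 < ρ := lt_min hrel.1 hρ'.1
  have h1 := hrel.mono hρ0 (min_le_left _ _)
  have h2 := hρ'.mono hρ0 (min_le_right _ _)
  set δ := min (min t (1 - t)) (ρ / (4 * (‖b - a‖ + 1))) with hδ
  have hd0 : 0 < ρ / (4 * (‖b - a‖ + 1)) := by positivity
  have hδ0 : 0 < δ := lt_min (lt_min ht.1 (by linarith [ht.2])) hd0
  refine ⟨δ, hδ0, fun h hh0 hhδ => ?_⟩
  have hh1 : h < t := lt_of_lt_of_le hhδ ((min_le_left _ _).trans (min_le_left _ _))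
  have hh2 : h < 1 - t := lt_of_lt_of_le hhδ ((min_le_left _ _).trans (min_le_right _ _))
  have hh3 : h < ρ / (4 * (‖b - a‖ + 1)) := lt_of_lt_of_le hhδ (min_le_right _ _)
  have hm : t - h ∈ Icc (0 : ℝ) 1 := ⟨by linarith, by linarith⟩
  have hp : t + h ∈ Icc (0 : ℝ) 1 := ⟨by linarith, by linarith⟩
  refine ⟨hm, hp, ?_⟩
  have hclose : h * ‖b - a‖ < ρ / 4 := by
    have h3 : h * (4 * (‖b - a‖ + 1)) < ρ := (lt_div_iff₀ (by positivity)).1 hh3
    nlinarith [norm_nonneg (b - a)]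
  have hcm : ‖c (t - h) - c t‖ < ρ / 4 := by
    rw [hcdist, norm_smul, Real.norm_eq_abs, show t - h - t = -h by ring, abs_neg, abs_of_pos hh0]
    exact hclose
  have hcp : ‖c (t + h) - c t‖ < ρ / 4 := by
    rw [hcdist, norm_smul, Real.norm_eq_abs, show t + h - t = h by ring, abs_of_pos hh0]
    exact hclose
  have hmid := local_mid hK hT hD (hcK t ⟨ht.1.le, ht.2.le⟩) h1 h2 (hcK _ hm) (hcK _ hp) hcm hcp
  have hcmid : (1 / 2 : ℝ) • (c (t - h) + c (t + h)) = c t := by
    simp only [hc]; module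
  rw [hcmid] at hmid
  simp only [hG]
  rw [hmid]
  have hdecomp : (1 / 2 : ℝ) • (T (c (t - h)) + T (c (t + h))) - ((1 - t) • T a + t • T b) =
      (1 / 2 : ℝ) • ((T (c (t - h)) - ((1 - (t - h)) • T a + (t - h) • T b)) +
        (T (c (t + h)) - ((1 - (t + h)) • T a + (t + h) • T b))) := by
    module
  rw [hdecomp, norm_smul]
  have hadd := norm_add_le (T (c (t - h)) - ((1 - (t - h)) • T a + (t - h) • T b))
    (T (c (t + h)) - ((1 - (t + h)) • T a + (t + h) • T b))
  norm_num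
  linarith

/-- The strong Mankiewicz property in finite dimensions: an isometry from a convex subset of a
finite-dimensional normed space onto a convex subset of a finite-dimensional normed space is
affine. -/
theorem affine_of_isometry_convex [FiniteDimensional ℝ E] [FiniteDimensional ℝ Y] {K : Set E}
    (hK : Convex ℝ K) {T : E → Y}
    (hT : ∀ a ∈ K, ∀ b ∈ K, ‖T a - T b‖ = ‖a - b‖) (hD : Convex ℝ (T '' K))
    {a b : E} (ha : a ∈ K) (hb : b ∈ K) {t : ℝ} (ht : t ∈ Icc (0 : ℝ) 1) :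
    T ((1 - t) • a + t • b) = (1 - t) • T a + t • T b := by
  obtain ⟨p, hp, ρ, hρ⟩ := exists_relBall hK ⟨a, ha⟩
  set x := (1 - t) • a + t • b with hx
  have ht0 := ht.1
  have ht1 := ht.2
  have hxK : x ∈ K := hK ha hb (by linarith) ht0 (by ring)
  set C := ‖p - a‖ + ‖p - b‖ with hC
  have hC0 : 0 ≤ C := by positivity
  set Δ := ‖T x - ((1 - t) • T a + t • T b)‖ with hΔ
  have hbound : ∀ s : ℝ, 0 < s → s ≤ 1 → Δ ≤ 2 * (s * C) := by
    intro s hs0 hs1
    set as := (1 - s) • a + s • p with has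
    set bs := (1 - s) • b + s • p with hbs
    have hasK : as ∈ K := hK ha hp (by linarith) hs0.le (by ring)
    have hbsK : bs ∈ K := hK hb hp (by linarith) hs0.le (by ring)
    have hra : ∃ r, RelBall K as r := ⟨_, RelBall.combo hK ha hp hρ hs0 hs1⟩
    have hrb : ∃ r, RelBall K bs r := ⟨_, RelBall.combo hK hb hp hρ hs0 hs1⟩
    have hseg := segment_affine hK hT hD hasK hbsK hra hrb t ht
    set xs := (1 - t) • as + t • bs with hxs
    have hxsK : xs ∈ K := hK hasK hbsK (by linarith) ht0 (by ring)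
    have h1 : x - xs = s • ((1 - t) • (a - p) + t • (b - p)) := by
      rw [hx, hxs, has, hbs]; module
    have hna : ‖a - as‖ = s * ‖p - a‖ := by
      have : a - as = s • (a - p) := by rw [has]; module
      rw [this, norm_smul, Real.norm_of_nonneg hs0.le, norm_sub_rev]
    have hnb : ‖b - bs‖ = s * ‖p - b‖ := by
      have : b - bs = s • (b - p) := by rw [hbs]; module
      rw [this, norm_smul, Real.norm_of_nonneg hs0.le, norm_sub_rev]
    have hnx : ‖x - xs‖ ≤ s * C := by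
      rw [h1, norm_smul, Real.norm_of_nonneg hs0.le]
      refine mul_le_mul_of_nonneg_left ?_ hs0.le
      refine (norm_add_le _ _).trans ?_
      rw [norm_smul, norm_smul, Real.norm_of_nonneg (by linarith), Real.norm_of_nonneg ht0,
        norm_sub_rev a p, norm_sub_rev b p, hC]
      nlinarith [norm_nonneg (p - a), norm_nonneg (p - b)]
    have hdec : T x - ((1 - t) • T a + t • T b) =
        (T x - T xs) + ((1 - t) • (T as - T a) + t • (T bs - T b)) := by
      rw [hseg]; module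
    rw [hΔ, hdec]
    refine (norm_add_le _ _).trans ?_
    rw [hT x hxK xs hxsK]
    have h2 : ‖(1 - t) • (T as - T a) + t • (T bs - T b)‖ ≤ s * C := by
      refine (norm_add_le _ _).trans ?_
      rw [norm_smul, norm_smul, Real.norm_of_nonneg (by linarith), Real.norm_of_nonneg ht0,
        hT as hasK a ha, hT bs hbsK b hb, norm_sub_rev as a, norm_sub_rev bs b, hna, hnb, hC]
      nlinarith [mul_nonneg hs0.le (norm_nonneg (p - a)), mul_nonneg hs0.le (norm_nonneg (p - b))]
    linarith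
  have hΔ0 : Δ = 0 := by
    by_contra hne
    have hpos : 0 < Δ := lt_of_le_of_ne (norm_nonneg _) (Ne.symm hne)
    set s := min 1 (Δ / (4 * (C + 1))) with hs
    have hs0 : 0 < s := lt_min one_pos (by positivity)
    have hs1 : s ≤ 1 := min_le_left _ _
    have h1 := hbound s hs0 hs1
    have h2 : s * (4 * (C + 1)) ≤ Δ := (le_div_iff₀ (by positivity)).1 (min_le_right _ _)
    nlinarith
  exact sub_eq_zero.1 (norm_eq_zero.1 hΔ0)

end Vale.Agent.Lib.P084
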