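import Vale.Agent.Lib.P084.Faces

open Set Metric

namespace Vale.Agent.Lib.P084

variable {Z : Type*} [NormedAddCommGroup Z] [NormedSpace ℝ Z]
variable {W : Type*} [NormedAddCommGroup W] [NormedSpace ℝ W]
variable {Y : Type*} [NormedAddCommGroup Y] [NormedSpace ℝ Y]

/-- A map on the unit ball preserving convex combinations and distances is the restriction of a
translated linear isometry. -/
theorem exists_linear_of_affine_ball (g : Z → Y)
    (hg : ∀ a b, ‖a‖ ≤ 1 → ‖b‖ ≤ 1 → ∀ t ∈ Icc (0 : ℝ) 1,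
      g ((1 - t) • a + t • b) = (1 - t) • g a + t • g b)
    (hiso : ∀ a b, ‖a‖ ≤ 1 → ‖b‖ ≤ 1 → ‖g a - g b‖ = ‖a - b‖) :
    ∃ L : Z →ₗ[ℝ] Y, (∀ z, ‖z‖ ≤ 1 → g z = g 0 + L z) ∧ ∀ z, ‖L z‖ = ‖z‖ := by
  set h : Z → Y := fun z => g z - g 0 with hh
  have h00 : h 0 = 0 := by simp [hh]
  have hscale : ∀ z, ‖z‖ ≤ 1 → ∀ t ∈ Icc (0 : ℝ) 1, h (t • z) = t • h z := by
    intro z hz t ht
    have := hg 0 z (by simp) hz t ht
    simp only [smul_zero, zero_add] at this
    simp only [hh, this]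
    module
  have hmid : ∀ a b, ‖a‖ ≤ 1 → ‖b‖ ≤ 1 →
      h ((1 / 2 : ℝ) • a + (1 / 2 : ℝ) • b) = (1 / 2 : ℝ) • h a + (1 / 2 : ℝ) • h b := by
    intro a b ha hb
    have := hg a b ha hb (1 / 2) (by norm_num)
    have h2 : (1 - 1 / 2 : ℝ) = 1 / 2 := by norm_num
    rw [h2] at this
    simp only [hh, this]
    module
  set L : Z → Y := fun z => ‖z‖ • h (‖z‖⁻¹ • z) with hL
  have hLr : ∀ z, ∀ r : ℝ, 0 < r → ‖z‖ ≤ r → L z = r • h (r⁻¹ • z) := by
    intro z r hr hzr
    by_cases hz : z = 0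
    · simp [hL, hz, h00]
    · have hn : ‖z‖ ≠ 0 := norm_ne_zero_iff.2 hz
      have hnpos : 0 < ‖z‖ := norm_pos_iff.2 hz
      have hunit : ‖‖z‖⁻¹ • z‖ ≤ 1 := by
        rw [norm_smul, norm_inv, norm_norm, inv_mul_cancel₀ hn]
      have ht : ‖z‖ / r ∈ Icc (0 : ℝ) 1 := ⟨by positivity, (div_le_one hr).2 hzr⟩
      have h1 := hscale _ hunit _ ht
      have h2 : (‖z‖ / r) • ‖z‖⁻¹ • z = r⁻¹ • z := by
        rw [smul_smul]
        congr 1
        field_simp
      rw [h2] at h1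
      simp only [hL]
      rw [h1, smul_smul]
      congr 1
      field_simp
  have hadd : ∀ x y, L (x + y) = L x + L y := by
    intro x y
    set r := ‖x‖ + ‖y‖ + 1 with hr
    have hr0 : 0 < r := by positivity
    have hxr : ‖x‖ ≤ r := by rw [hr]; linarith [norm_nonneg y]
    have hyr : ‖y‖ ≤ r := by rw [hr]; linarith [norm_nonneg x]
    have hxyr : ‖x + y‖ ≤ 2 * r := by
      have := norm_add_le x y
      linarith
    have hu : ∀ v : Z, ‖v‖ ≤ r → ‖r⁻¹ • v‖ ≤ 1 := by
      intro v hv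
      rw [norm_smul, norm_inv, Real.norm_of_nonneg hr0.le, inv_mul_le_iff₀ hr0]
      linarith
    rw [hLr (x + y) (2 * r) (by positivity) hxyr, hLr x r hr0 hxr, hLr y r hr0 hyr]
    have h1 : (2 * r)⁻¹ • (x + y) = (1 / 2 : ℝ) • r⁻¹ • x + (1 / 2 : ℝ) • r⁻¹ • y := by
      rw [mul_inv]; module
    rw [h1, hmid _ _ (hu x hxr) (hu y hyr)]
    module
  have hneg : ∀ x, L (-x) = -L x := by
    intro x
    have h1 := hadd x (-x)
    have h2 : L 0 = 0 := by simp [hL]
    rw [add_neg_cancel, h2] at h1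
    exact (eq_neg_of_add_eq_zero_right h1.symm)
  have hpos : ∀ (c : ℝ) (x : Z), 0 < c → L (c • x) = c • L x := by
    intro c x hc
    set r := ‖x‖ + 1 with hr
    have hr0 : 0 < r := by positivity
    have hxr : ‖x‖ ≤ r := by rw [hr]; linarith
    have h1 : ‖c • x‖ ≤ c * r := by
      rw [norm_smul, Real.norm_of_nonneg hc.le]
      exact mul_le_mul_of_nonneg_left hxr hc.le
    rw [hLr (c • x) (c * r) (by positivity) h1, hLr x r hr0 hxr]
    have h2 : (c * r)⁻¹ • c • x = r⁻¹ • x := by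
      rw [smul_smul]
      congr 1
      field_simp
    rw [h2, smul_smul]
  have hsmul : ∀ (c : ℝ) (x : Z), L (c • x) = c • L x := by
    intro c x
    rcases lt_trichotomy c 0 with hc | hc | hc
    · have h1 := hpos (-c) x (by linarith)
      rw [neg_smul, hneg, neg_smul] at h1
      exact neg_injective h1
    · have h2 : L 0 = 0 := by simp [hL]
      simp [hc, h2]
    · exact hpos c x hc
  refine ⟨IsLinearMap.mk' L ⟨hadd, hsmul⟩, fun z hz => ?_, fun z => ?_⟩
  · have h1 := hLr z 1 one_pos hz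
    simp only [inv_one, one_smul] at h1
    simp only [IsLinearMap.mk'_apply, h1, hh]
    abel
  · simp only [IsLinearMap.mk'_apply]
    by_cases hz : z = 0
    · simp [hL, hz]
    · have hn : ‖z‖ ≠ 0 := norm_ne_zero_iff.2 hz
      have hunit : ‖‖z‖⁻¹ • z‖ = 1 := by
        rw [norm_smul, norm_inv, norm_norm, inv_mul_cancel₀ hn]
      simp only [hL, norm_smul, norm_norm, hh]
      rw [hiso _ _ hunit.le (by simp)]
      rw [sub_zero, hunit, mul_one]

theorem lin_ext_sphere {L L' : Z →ₗ[ℝ] Y} (h : ∀ z, ‖z‖ = 1 → L z = L' z) : L = L' := by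
  ext z
  by_cases hz : z = 0
  · simp [hz]
  · have hn : ‖z‖ ≠ 0 := norm_ne_zero_iff.2 hz
    have hunit : ‖‖z‖⁻¹ • z‖ = 1 := by
      rw [norm_smul, norm_inv, norm_norm, inv_mul_cancel₀ hn]
    have h1 := h _ hunit
    rw [map_smul, map_smul] at h1
    have h2 := congrArg (fun u => ‖z‖ • u) h1
    simpa only [smul_smul, mul_inv_cancel₀ hn, one_smul] using h2

theorem norm_map_of_sphere {L : Z →ₗ[ℝ] Y} (h : ∀ z, ‖z‖ = 1 → ‖L z‖ = 1) (z : Z) :
    ‖L z‖ = ‖z‖ := by
  by_cases hz : z = 0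
  · simp [hz]
  · have hn : ‖z‖ ≠ 0 := norm_ne_zero_iff.2 hz
    have hunit : ‖‖z‖⁻¹ • z‖ = 1 := by
      rw [norm_smul, norm_inv, norm_norm, inv_mul_cancel₀ hn]
    have h1 := h _ hunit
    rw [map_smul, norm_smul, norm_inv, norm_norm] at h1
    field_simp at h1
    exact h1

/-- A linear map `M` with `‖z + M z‖ ≤ ‖z‖` and `‖z - M z‖ ≤ ‖z‖` for all `z` vanishes:
it vanishes on the extreme points of the ball, which span the space. -/
theorem lin_zero_of_contraction [FiniteDimensional ℝ Z] (M : Z →ₗ[ℝ] Z)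
    (h : ∀ z, ‖z + M z‖ ≤ ‖z‖ ∧ ‖z - M z‖ ≤ ‖z‖) : M = 0 := by
  have hext : ∀ z ∈ ({v | v ∈ (⊤ : Submodule ℝ Z) ∧ ‖v‖ ≤ 1} : Set Z).extremePoints ℝ, M z = 0 := by
    intro z hz
    obtain ⟨⟨_, hz1⟩, hmax⟩ := mem_extremePoints.1 hz
    have hp : z + M z ∈ ({v | v ∈ (⊤ : Submodule ℝ Z) ∧ ‖v‖ ≤ 1} : Set Z) :=
      ⟨Submodule.mem_top, (h z).1.trans hz1⟩
    have hq : z - M z ∈ ({v | v ∈ (⊤ : Submodule ℝ Z) ∧ ‖v‖ ≤ 1} : Set Z) :=
      ⟨Submodule.mem_top, (h z).2.trans hz1⟩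
    have hseg : z ∈ openSegment ℝ (z + M z) (z - M z) := by
      refine ⟨1 / 2, 1 / 2, by norm_num, by norm_num, by norm_num, ?_⟩
      module
    have := (hmax _ hp _ hq hseg).1
    exact add_eq_left.1 this
  have hspan := span_extreme (⊤ : Submodule ℝ Z)
  ext z
  have hz := hspan (Submodule.mem_top (x := z))
  refine Submodule.span_induction (p := fun u _ => M u = 0) (fun u hu => hext u hu) (by simp)
    (fun x y _ _ hx hy => by rw [map_add, hx, hy, add_zero])
    (fun c x _ hx => by rw [map_smul, hx, smul_zero]) hz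

section main

variable [FiniteDimensional ℝ Z] [FiniteDimensional ℝ W] [Nontrivial Z] [Nontrivial W]

theorem mem_farFar_left {z : Z} {w : W} (hz : ‖z‖ ≤ 1) (hw : ‖w‖ = 1) :
    ((z, w) : Z × W) ∈ farFar ((0 : Z), w) := by
  refine ⟨?_, ?_⟩
  · rw [Prod.norm_mk, hw]; exact max_eq_right hz
  · rintro ⟨z', w'⟩ ⟨hy1, hy2⟩
    rw [Prod.norm_mk] at hy1
    have hz' : ‖z'‖ ≤ 1 := by rw [← hy1]; exact le_max_left _ _
    have hw' : ‖w'‖ ≤ 1 := by rw [← hy1]; exact le_max_right _ _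
    have hsub : ((0 : Z), w) - (z', w') = (-z', w - w') := by simp
    rw [hsub, Prod.norm_mk, norm_neg] at hy2
    have hww : ‖w - w'‖ = 2 := by
      rcases max_choice ‖z'‖ ‖w - w'‖ with h | h
      · rw [h] at hy2; linarith
      · rw [h] at hy2; exact hy2
    have hsub2 : ((z, w) : Z × W) - (z', w') = (z - z', w - w') := rfl
    rw [hsub2, Prod.norm_mk, hww]
    refine max_eq_right ?_
    have := norm_sub_le z z'
    linarith

theorem mem_farFar_right {z : Z} {w : W} (hz : ‖z‖ = 1) (hw : ‖w‖ ≤ 1) :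
    ((z, w) : Z × W) ∈ farFar (z, (0 : W)) := by
  refine ⟨?_, ?_⟩
  · rw [Prod.norm_mk, hz]; exact max_eq_left hw
  · rintro ⟨z', w'⟩ ⟨hy1, hy2⟩
    rw [Prod.norm_mk] at hy1
    have hz' : ‖z'‖ ≤ 1 := by rw [← hy1]; exact le_max_left _ _
    have hw' : ‖w'‖ ≤ 1 := by rw [← hy1]; exact le_max_right _ _
    have hsub : (z, (0 : W)) - (z', w') = (z - z', -w') := by simp
    rw [hsub, Prod.norm_mk, norm_neg] at hy2
    have hzz : ‖z - z'‖ = 2 := by
      rcases max_choice ‖z - z'‖ ‖w'‖ with h | h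
      · rw [h] at hy2; exact hy2
      · rw [h] at hy2; linarith
    have hsub2 : ((z, w) : Z × W) - (z', w') = (z - z', w - w') := rfl
    rw [hsub2, Prod.norm_mk, hzz]
    refine max_eq_left ?_
    have := norm_sub_le w w'
    linarith

theorem norm_pair_left {z : Z} {w : W} (hz : ‖z‖ ≤ 1) (hw : ‖w‖ = 1) : ‖((z, w) : Z × W)‖ = 1 := by
  rw [Prod.norm_mk, hw]; exact max_eq_right hz

theorem norm_pair_right {z : Z} {w : W} (hz : ‖z‖ = 1) (hw : ‖w‖ ≤ 1) : ‖((z, w) : Z × W)‖ = 1 := by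
  rw [Prod.norm_mk, hz]; exact max_eq_left hw

/-- The main theorem in total-map form: a surjective isometry from the unit sphere of a
sup-norm product of two nontrivial finite-dimensional normed spaces onto the unit sphere of
any real normed space is the restriction of a linear isometry onto. -/
theorem sup_product_mazur_ulam {f : Z × W → Y} (hf : SphereIso f) :
    ∃ T : (Z × W) ≃ₗᵢ[ℝ] Y, ∀ x, ‖x‖ = 1 → T x = f x := by
  have : FiniteDimensional ℝ Y := hf.finiteDimensional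
  obtain ⟨z₀, hz₀⟩ := exists_norm_eq Z (zero_le_one' ℝ)
  obtain ⟨w₀, hw₀⟩ := exists_norm_eq W (zero_le_one' ℝ)
  have : Nontrivial Y := by
    have h1 := hf.norm_one (z₀, (0 : W)) (norm_pair_right hz₀ (by simp))
    refine ⟨⟨f (z₀, (0 : W)), 0, fun h => ?_⟩⟩
    rw [h, norm_zero] at h1
    exact zero_ne_one h1
  -- affinity on the two kinds of flats
  have hex1 : ∀ w : W, ‖w‖ = 1 → ∃ L : Z →ₗ[ℝ] Y,
      (∀ z, ‖z‖ ≤ 1 → f (z, w) = f ((0 : Z), w) + L z) ∧ ∀ z, ‖L z‖ = ‖z‖ := by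
    intro w hw
    refine exists_linear_of_affine_ball (fun z => f (z, w)) ?_ ?_
    · intro a b ha hb t ht
      have := hf.affine_on_farFar (x := ((0 : Z), w)) (norm_pair_left (by simp) hw)
        (mem_farFar_left ha hw) (mem_farFar_left hb hw) ht
      have h2 : (1 - t) • ((a, w) : Z × W) + t • (b, w) = ((1 - t) • a + t • b, w) := by
        ext
        · simp
        · simp only [Prod.snd_add, Prod.smul_snd]; module
      rwa [h2] at this
    · intro a b ha hb
      rw [hf.iso _ _ (norm_pair_left ha hw) (norm_pair_left hb hw)]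
      have h2 : ((a, w) : Z × W) - (b, w) = (a - b, 0) := by simp
      rw [h2, Prod.norm_mk, norm_zero]
      exact max_eq_left (norm_nonneg _)
  have hex2 : ∀ z : Z, ‖z‖ = 1 → ∃ L : W →ₗ[ℝ] Y,
      (∀ w, ‖w‖ ≤ 1 → f (z, w) = f (z, (0 : W)) + L w) ∧ ∀ w, ‖L w‖ = ‖w‖ := by
    intro z hz
    refine exists_linear_of_affine_ball (fun w => f (z, w)) ?_ ?_
    · intro a b ha hb t ht
      have := hf.affine_on_farFar (x := (z, (0 : W))) (norm_pair_right hz (by simp))
        (mem_farFar_right hz ha) (mem_farFar_right hz hb) ht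
      have h2 : (1 - t) • ((z, a) : Z × W) + t • (z, b) = (z, (1 - t) • a + t • b) := by
        ext
        · simp only [Prod.fst_add, Prod.smul_fst]; module
        · simp
      rwa [h2] at this
    · intro a b ha hb
      rw [hf.iso _ _ (norm_pair_right hz ha) (norm_pair_right hz hb)]
      have h2 : ((z, a) : Z × W) - (z, b) = (0, a - b) := by simp
      rw [h2, Prod.norm_mk, norm_zero]
      exact max_eq_right (norm_nonneg _)
  choose! A hA hAi using hex1
  choose! C hC hCi using hex2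
  have hnz₀ : ‖-z₀‖ = 1 := by rw [norm_neg]; exact hz₀
  have hnw₀ : ‖-w₀‖ = 1 := by rw [norm_neg]; exact hw₀
  set u₀ : Y := (1 / 2 : ℝ) • (f (z₀, (0 : W)) + f (-z₀, (0 : W))) with hu₀
  set Cb : W →ₗ[ℝ] Y := (1 / 2 : ℝ) • (C z₀ + C (-z₀)) with hCb
  set Ab : Z →ₗ[ℝ] Y := (1 / 2 : ℝ) • (A w₀ + A (-w₀)) with hAb
  have hCbapp : ∀ w, Cb w = (1 / 2 : ℝ) • (C z₀ w + C (-z₀) w) := fun w => by simp [hCb]
  have hAbapp : ∀ z, Ab z = (1 / 2 : ℝ) • (A w₀ z + A (-w₀) z) := fun z => by simp [hAb]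
  -- the values on `{0} × S_W`
  have hu : ∀ w, ‖w‖ = 1 → f ((0 : Z), w) = u₀ + Cb w := by
    intro w hw
    have h1 := hA w hw z₀ hz₀.le
    have h2 := hA w hw (-z₀) hnz₀.le
    have h3 := hC z₀ hz₀ w hw.le
    have h4 := hC (-z₀) hnz₀ w hw.le
    rw [map_neg] at h2
    rw [hCbapp, hu₀]
    linear_combination (norm := module) (-(1 / 2 : ℝ)) • h1 - (1 / 2 : ℝ) • h2 + (1 / 2 : ℝ) • h3 + (1 / 2 : ℝ) • h4
  -- the values on `S_Z × {0}`
  have hv : ∀ z, ‖z‖ = 1 → f (z, (0 : W)) = u₀ + Ab z := by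
    intro z hz
    have h1 := hC z hz w₀ hw₀.le
    have h2 := hC z hz (-w₀) hnw₀.le
    have h3 := hA w₀ hw₀ z hz.le
    have h4 := hA (-w₀) hnw₀ z hz.le
    have h5 := hu w₀ hw₀
    have h6 := hu (-w₀) hnw₀
    rw [map_neg] at h2 h6
    rw [hAbapp]
    linear_combination (norm := module) (-(1 / 2 : ℝ)) • h1 - (1 / 2 : ℝ) • h2 + (1 / 2 : ℝ) • h3 +
      (1 / 2 : ℝ) • h4 + (1 / 2 : ℝ) • h5 + (1 / 2 : ℝ) • h6
  -- the basic identity
  have hE1 : ∀ z, ‖z‖ = 1 → ∀ w, ‖w‖ = 1 → A w z + Cb w = Ab z + C z w := by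
    intro z hz w hw
    have h1 := hA w hw z hz.le
    have h2 := hC z hz w hw.le
    have h3 := hu w hw
    have h4 := hv z hz
    linear_combination (norm := module) (-h1) + h2 - h3 + h4
  have hE3 : ∀ w, ‖w‖ = 1 → ∀ z, A w z + A (-w) z = (2 : ℝ) • Ab z := by
    intro w hw
    have hL : A w + A (-w) = (2 : ℝ) • Ab := by
      refine lin_ext_sphere fun z hz => ?_
      have h1 := hE1 z hz w hw
      have h2 := hE1 z hz (-w) (by rw [norm_neg]; exact hw)
      rw [map_neg, map_neg] at h2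
      simp only [LinearMap.add_apply, LinearMap.smul_apply]
      linear_combination (norm := module) h1 + h2
    intro z
    have := congrArg (fun L : Z →ₗ[ℝ] Y => L z) hL
    simpa using this
  have hE2 : ∀ z, ‖z‖ = 1 → ∀ w, C z w + C (-z) w = (2 : ℝ) • Cb w := by
    intro z hz
    have hL : C z + C (-z) = (2 : ℝ) • Cb := by
      refine lin_ext_sphere fun w hw => ?_
      have h1 := hE1 z hz w hw
      have h2 := hE1 (-z) (by rw [norm_neg]; exact hz) w hw
      rw [map_neg, map_neg] at h2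
      simp only [LinearMap.add_apply, LinearMap.smul_apply]
      linear_combination (norm := module) (-h1) - h2
    intro w
    have := congrArg (fun L : W →ₗ[ℝ] Y => L w) hL
    simpa using this
  -- the candidate linear isometry
  set Ψ : (Z × W) →ₗ[ℝ] Y := Ab.coprod Cb with hΨ
  have hΨapp : ∀ z w, Ψ (z, w) = Ab z + Cb w := fun z w => by simp [hΨ]
  have hΨ1 : ∀ x, ‖x‖ = 1 → ‖Ψ x‖ = 1 := by
    rintro ⟨z, w⟩ hx
    rw [hΨapp]
    have hz1 : ‖z‖ ≤ 1 := by rw [← hx]; exact le_max_left _ _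
    have hw1 : ‖w‖ ≤ 1 := by rw [← hx]; exact le_max_right _ _
    have hnegx : ‖((-z, -w) : Z × W)‖ = 1 := by
      rw [Prod.norm_mk, norm_neg, norm_neg]; exact hx
    have hdiff : ‖f (z, w) - f (-z, -w)‖ = 2 := by
      rw [hf.iso _ _ hx hnegx]
      have : ((z, w) : Z × W) - (-z, -w) = (2 : ℝ) • (z, w) := by
        ext <;> simp [two_smul]
      rw [this, norm_smul, hx]
      norm_num
    have hD : f (z, w) - f (-z, -w) = (2 : ℝ) • (Ab z + Cb w) := by
      have hcase : ‖w‖ = 1 ∨ ‖z‖ = 1 := by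
        rcases max_choice ‖z‖ ‖w‖ with h | h
        · right; rw [← h]; exact hx
        · left; rw [← h]; exact hx
      rcases hcase with hw | hz
      · have hnw : ‖-w‖ = 1 := by rw [norm_neg]; exact hw
        have hnz : ‖-z‖ ≤ 1 := by rw [norm_neg]; exact hz1
        have h1 := hA w hw z hz1
        have h2 := hA (-w) hnw (-z) hnz
        have h3 := hu w hw
        have h4 := hu (-w) hnw
        have h5 := hE3 w hw z
        rw [map_neg] at h2 h4
        linear_combination (norm := module) h1 - h2 + h3 - h4 + h5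
      · have hnz : ‖-z‖ = 1 := by rw [norm_neg]; exact hz
        have hnw : ‖-w‖ ≤ 1 := by rw [norm_neg]; exact hw1
        have h1 := hC z hz w hw1
        have h2 := hC (-z) hnz (-w) hnw
        have h3 := hv z hz
        have h4 := hv (-z) hnz
        have h5 := hE2 z hz w
        rw [map_neg] at h2 h4
        linear_combination (norm := module) h1 - h2 + h3 - h4 + h5
    rw [hD, norm_smul] at hdiff
    norm_num at hdiff
    linarith
  have hΨn : ∀ x, ‖Ψ x‖ = ‖x‖ := norm_map_of_sphere hΨ1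
  have hinj : Function.Injective Ψ := by
    intro x y hxy
    have h1 := hΨn (x - y)
    rw [map_sub, hxy, sub_self, norm_zero] at h1
    exact sub_eq_zero.1 (norm_eq_zero.1 h1.symm)
  have hfr : Module.finrank ℝ (Z × W) = Module.finrank ℝ Y :=
    le_antisymm (LinearMap.finrank_le_finrank_of_injective hinj) hf.finrank_le
  have hsurj : Function.Surjective Ψ :=
    (LinearMap.injective_iff_surjective_of_finrank_eq_finrank hfr).1 hinj
  set e : (Z × W) ≃ₗ[ℝ] Y := LinearEquiv.ofBijective Ψ ⟨hinj, hsurj⟩ with he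
  have heapp : ∀ x, e x = Ψ x := fun x => rfl
  set Φ : Y →ₗ[ℝ] (Z × W) := e.symm.toLinearMap with hΦdef
  have hΨΦ : ∀ y, Ψ (Φ y) = y := fun y => by
    rw [← heapp]; exact e.apply_symm_apply y
  have hΦΨ : ∀ x, Φ (Ψ x) = x := fun x => by
    rw [← heapp]; exact e.symm_apply_apply x
  have hΦn : ∀ y, ‖Φ y‖ = ‖y‖ := fun y => by
    rw [← hΨn, hΨΦ]
  have hΦAb : ∀ z, Φ (Ab z) = (z, 0) := fun z => by
    have := hΦΨ (z, 0)
    rwa [hΨapp, map_zero, add_zero] at this
  have hΦCb : ∀ w, Φ (Cb w) = (0, w) := fun w => by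
    have := hΦΨ (0, w)
    rwa [hΨapp, map_zero, zero_add] at this
  -- the extreme point argument on the two factors
  have htrick1 : ∀ w, ‖w‖ = 1 → ∀ z, (Φ (A w z - Ab z)).1 = 0 := by
    intro w hw
    set M : Z →ₗ[ℝ] Z := (LinearMap.fst ℝ Z W) ∘ₗ Φ ∘ₗ (A w - Ab) with hM
    have hMapp : ∀ z, M z = (Φ (A w z - Ab z)).1 := fun z => rfl
    have hM0 : M = 0 := by
      refine lin_zero_of_contraction M fun z => ⟨?_, ?_⟩
      · have h1 : z + M z = (Φ (A w z)).1 := by
          rw [hMapp, map_sub, hΦAb, Prod.fst_sub]; abel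
        rw [h1]
        refine (norm_fst_le _).trans ?_
        rw [hΦn, hAi w hw]
      · have hnw : ‖-w‖ = 1 := by rw [norm_neg]; exact hw
        have h1 : z - M z = (Φ (A (-w) z)).1 := by
          have h5 := hE3 w hw z
          have h2 : A (-w) z = (2 : ℝ) • Ab z - A w z := by
            linear_combination (norm := module) h5
          rw [hMapp, h2, map_sub, map_sub, map_smul, hΦAb]
          simp [two_smul]
          abel
        rw [h1]
        refine (norm_fst_le _).trans ?_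
        rw [hΦn, hAi _ hnw]
    intro z
    rw [← hMapp, hM0]
    rfl
  have htrick2 : ∀ z, ‖z‖ = 1 → ∀ w, (Φ (C z w - Cb w)).2 = 0 := by
    intro z hz
    set M : W →ₗ[ℝ] W := (LinearMap.snd ℝ Z W) ∘ₗ Φ ∘ₗ (C z - Cb) with hM
    have hMapp : ∀ w, M w = (Φ (C z w - Cb w)).2 := fun w => rfl
    have hM0 : M = 0 := by
      refine lin_zero_of_contraction M fun w => ⟨?_, ?_⟩
      · have h1 : w + M w = (Φ (C z w)).2 := by
          rw [hMapp, map_sub, hΦCb, Prod.snd_sub]; abel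
        rw [h1]
        refine (norm_snd_le _).trans ?_
        rw [hΦn, hCi z hz]
      · have hnz : ‖-z‖ = 1 := by rw [norm_neg]; exact hz
        have h1 : w - M w = (Φ (C (-z) w)).2 := by
          have h5 := hE2 z hz w
          have h2 : C (-z) w = (2 : ℝ) • Cb w - C z w := by
            linear_combination (norm := module) h5
          rw [hMapp, h2, map_sub, map_sub, map_smul, hΦCb]
          simp [two_smul]
          abel
        rw [h1]
        refine (norm_snd_le _).trans ?_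
        rw [hΦn, hCi _ hnz]
    intro w
    rw [← hMapp, hM0]
    rfl
  have hkey : ∀ z, ‖z‖ = 1 → ∀ w, ‖w‖ = 1 → A w z = Ab z ∧ C z w = Cb w := by
    intro z hz w hw
    have h1 := hE1 z hz w hw
    have h2 : C z w - Cb w = A w z - Ab z := by
      linear_combination (norm := module) -h1
    have h3 := htrick1 w hw z
    have h4 := htrick2 z hz w
    rw [h2] at h4
    have h5 : Φ (A w z - Ab z) = 0 := Prod.ext h3 h4
    have h6 : A w z - Ab z = 0 := by
      have := hΨΦ (A w z - Ab z)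
      rw [h5, map_zero] at this
      exact this.symm
    have h7 : A w z = Ab z := sub_eq_zero.1 h6
    refine ⟨h7, ?_⟩
    rw [h7, sub_self] at h2
    exact sub_eq_zero.1 h2
  have hAall : ∀ w, ‖w‖ = 1 → A w = Ab := fun w hw =>
    lin_ext_sphere fun z hz => (hkey z hz w hw).1
  have hCall : ∀ z, ‖z‖ = 1 → C z = Cb := fun z hz =>
    lin_ext_sphere fun w hw => (hkey z hz w hw).2
  have hfΨ : ∀ x, ‖x‖ = 1 → f x = u₀ + Ψ x := by
    rintro ⟨z, w⟩ hx
    rw [hΨapp]
    have hz1 : ‖z‖ ≤ 1 := by rw [← hx]; exact le_max_left _ _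
    have hw1 : ‖w‖ ≤ 1 := by rw [← hx]; exact le_max_right _ _
    have hcase : ‖w‖ = 1 ∨ ‖z‖ = 1 := by
      rcases max_choice ‖z‖ ‖w‖ with h | h
      · right; rw [← h]; exact hx
      · left; rw [← h]; exact hx
    rcases hcase with hw | hz
    · rw [hA w hw z hz1, hu w hw, hAall w hw]
      abel
    · rw [hC z hz w hw1, hv z hz, hCall z hz]
      abel
  have hu0 : u₀ = 0 := by
    by_contra hne
    have hn : ‖u₀‖ ≠ 0 := norm_ne_zero_iff.2 hne
    have hnpos : 0 < ‖u₀‖ := norm_pos_iff.2 hne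
    set y := ‖u₀‖⁻¹ • u₀ with hy
    have hy1 : ‖y‖ = 1 := by
      rw [hy, norm_smul, norm_inv, norm_norm, inv_mul_cancel₀ hn]
    have hx1 : ‖Φ y‖ = 1 := by rw [hΦn, hy1]
    have h1 := hf.norm_one _ hx1
    rw [hfΨ _ hx1, hΨΦ] at h1
    have hu' : ‖u₀‖ • y = u₀ := by
      rw [hy, smul_smul, mul_inv_cancel₀ hn, one_smul]
    have h2 : u₀ + y = (‖u₀‖ + 1) • y := by
      rw [add_smul, one_smul, hu']
    rw [h2, norm_smul, hy1, mul_one, Real.norm_of_nonneg (by positivity)] at h1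
    linarith
  refine ⟨⟨e, fun x => by rw [heapp]; exact hΨn x⟩, fun x hx => ?_⟩
  rw [hfΨ x hx, hu0, zero_add]
  rfl

end main

end Vale.Agent.Lib.P084
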